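import Mathlib

open MeasureTheory Set
open scoped ENNReal

namespace Vale.Agent.P121

section Abstract

variable {X : Type*} [MeasurableSpace X]

/-- The triple `(x, y, z)` is a permutation of `(p, q, r)`. -/
def IsPerm3 (p q r x y z : X) : Prop :=
  (x = p ∧ y = q ∧ z = r) ∨ (x = p ∧ y = r ∧ z = q) ∨
  (x = q ∧ y = p ∧ z = r) ∨ (x = q ∧ y = r ∧ z = p) ∨
  (x = r ∧ y = p ∧ z = q) ∨ (x = r ∧ y = q ∧ z = p)

/-- `π` is a three-marginal coupling of `μ` with itself. -/
structure IsCoupling3 (μ : Measure X) (π : Measure (X × X × X)) : Prop where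
  prob : IsProbabilityMeasure π
  fst : π.map (fun p => p.1) = μ
  snd : π.map (fun p => p.2.1) = μ
  trd : π.map (fun p => p.2.2) = μ

/-- The Kantorovich value for the cost `c`. -/
noncomputable def kant (c : X → X → X → ℝ≥0∞) (μ : Measure X) : ℝ≥0∞ :=
  ⨅ (π : Measure (X × X × X)) (_ : IsCoupling3 μ π), ∫⁻ p, c p.1 p.2.1 p.2.2 ∂π

/-- Data of the construction. -/
structure Data (c : X → X → X → ℝ≥0∞) where
  lam : Measure X
  prob : IsProbabilityMeasure lam
  U : Set X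
  hU : MeasurableSet U
  hlam : lam Uᶜ = 0
  α : Bool → X → X
  β : Bool → X → X
  γ : Bool → X → X
  hα : ∀ i, Measurable (α i)
  hβ : ∀ i, Measurable (β i)
  hγ : ∀ i, Measurable (γ i)
  SA : Set X
  SB : Bool → Set X
  SC : Bool → Set X
  mSA : MeasurableSet SA
  mSB : ∀ i, MeasurableSet (SB i)
  mSC : ∀ i, MeasurableSet (SC i)
  dAB : ∀ i, Disjoint SA (SB i)
  dAC : ∀ i, Disjoint SA (SC i)
  dBC : ∀ i j, Disjoint (SB i) (SC j)
  dBB : Disjoint (SB false) (SB true)
  dCC : Disjoint (SC false) (SC true)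
  mapα : ∀ i, MapsTo (α i) U SA
  mapβ : ∀ i, MapsTo (β i) U (SB i)
  mapγ : ∀ i, MapsTo (γ i) U (SC i)
  injα : ∀ i, InjOn (α i) U
  injβ : ∀ i, InjOn (β i) U
  injγ : ∀ i, InjOn (γ i) U
  u : X → ℝ≥0∞
  hu : Measurable u
  bound : ℝ≥0∞
  hbound : bound ≠ ∞
  hub : ∀ x, u x ≤ bound
  M : ℝ≥0∞
  hM : M ≠ ∞
  hc : Measurable (fun p : X × X × X => c p.1 p.2.1 p.2.2)
  csymm1 : ∀ x y z, c x y z = c y z x
  hge : ∀ x ∈ SA ∪ (⋃ i, SB i) ∪ (⋃ i, SC i), ∀ y ∈ SA ∪ (⋃ i, SB i) ∪ (⋃ i, SC i),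
    ∀ z ∈ SA ∪ (⋃ i, SB i) ∪ (⋃ i, SC i), u x + u y + u z ≤ c x y z + M
  heq : ∀ x ∈ SA ∪ (⋃ i, SB i) ∪ (⋃ i, SC i), ∀ y ∈ SA ∪ (⋃ i, SB i) ∪ (⋃ i, SC i),
    ∀ z ∈ SA ∪ (⋃ i, SB i) ∪ (⋃ i, SC i), u x + u y + u z = c x y z + M →
      ∃ i, ∃ t ∈ U, IsPerm3 (α i t) (β i t) (γ i t) x y z
  hcontact : ∀ i, ∀ t ∈ U, c (α i t) (β i t) (γ i t) + M = u (α i t) + u (β i t) + u (γ i t)
  hns : ¬ (lam.map (α false)).MutuallySingular (lam.map (α true))

namespace Data

variable {c : X → X → X → ℝ≥0∞} (d : Data c)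

instance : IsProbabilityMeasure d.lam := d.prob

/-- The one-particle marginal. -/
noncomputable def mu : Measure X :=
  (6 : ℝ≥0∞)⁻¹ • ((d.lam.map (d.α false) + d.lam.map (d.β false) + d.lam.map (d.γ false)) +
    (d.lam.map (d.α true) + d.lam.map (d.β true) + d.lam.map (d.γ true)))

/-- The support set. -/
def S : Set X := d.SA ∪ (⋃ i, d.SB i) ∪ (⋃ i, d.SC i)

/-- The cyclically symmetrised plan. -/
noncomputable def plan : Measure (X × X × X) :=
  (6 : ℝ≥0∞)⁻¹ • ((d.lam.map (fun t => (d.α false t, d.β false t, d.γ false t)) +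
      d.lam.map (fun t => (d.β false t, d.γ false t, d.α false t)) +
      d.lam.map (fun t => (d.γ false t, d.α false t, d.β false t))) +
    (d.lam.map (fun t => (d.α true t, d.β true t, d.γ true t)) +
      d.lam.map (fun t => (d.β true t, d.γ true t, d.α true t)) +
      d.lam.map (fun t => (d.γ true t, d.α true t, d.β true t))))

lemma mem_S_of_SA {x : X} (h : x ∈ d.SA) : x ∈ d.S := Or.inl (Or.inl h)
lemma mem_S_of_SB {x : X} (i : Bool) (h : x ∈ d.SB i) : x ∈ d.S :=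
  Or.inl (Or.inr (mem_iUnion.2 ⟨i, h⟩))
lemma mem_S_of_SC {x : X} (i : Bool) (h : x ∈ d.SC i) : x ∈ d.S :=
  Or.inr (mem_iUnion.2 ⟨i, h⟩)

lemma measurableSet_S : MeasurableSet d.S := by
  refine MeasurableSet.union (MeasurableSet.union d.mSA ?_) ?_
  · exact MeasurableSet.iUnion d.mSB
  · exact MeasurableSet.iUnion d.mSC

lemma ae_mem_U : ∀ᵐ t ∂d.lam, t ∈ d.U := by
  rw [ae_iff]
  exact d.hlam

lemma map_apply_compl_S {f : X → X} (hf : Measurable f) (h : MapsTo f d.U d.S) :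
    d.lam.map f d.Sᶜ = 0 := by
  rw [Measure.map_apply hf d.measurableSet_S.compl]
  refine measure_mono_null ?_ d.hlam
  intro t ht htU
  exact ht (h htU)

lemma mu_compl_S : d.mu d.Sᶜ = 0 := by
  unfold mu
  simp only [Measure.smul_apply, Measure.add_apply, smul_eq_mul]
  rw [d.map_apply_compl_S (d.hα _) (fun t ht => d.mem_S_of_SA (d.mapα _ ht)),
    d.map_apply_compl_S (d.hβ _) (fun t ht => d.mem_S_of_SB _ (d.mapβ _ ht)),
    d.map_apply_compl_S (d.hγ _) (fun t ht => d.mem_S_of_SC _ (d.mapγ _ ht)),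
    d.map_apply_compl_S (d.hα _) (fun t ht => d.mem_S_of_SA (d.mapα _ ht)),
    d.map_apply_compl_S (d.hβ _) (fun t ht => d.mem_S_of_SB _ (d.mapβ _ ht)),
    d.map_apply_compl_S (d.hγ _) (fun t ht => d.mem_S_of_SC _ (d.mapγ _ ht))]
  simp

lemma ae_mem_S : ∀ᵐ x ∂d.mu, x ∈ d.S := by
  rw [ae_iff]; exact d.mu_compl_S

instance : IsProbabilityMeasure d.mu := by
  constructor
  unfold mu
  simp only [Measure.smul_apply, Measure.add_apply, smul_eq_mul]
  rw [Measure.map_apply (d.hα _) MeasurableSet.univ, Measure.map_apply (d.hβ _) MeasurableSet.univ,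
    Measure.map_apply (d.hγ _) MeasurableSet.univ, Measure.map_apply (d.hα _) MeasurableSet.univ,
    Measure.map_apply (d.hβ _) MeasurableSet.univ, Measure.map_apply (d.hγ _) MeasurableSet.univ]
  simp only [preimage_univ, measure_univ]
  norm_num
  exact ENNReal.inv_mul_cancel (by norm_num) (by norm_num)

lemma lintegral_mu {f : X → ℝ≥0∞} (hf : Measurable f) :
    ∫⁻ x, f x ∂d.mu = (6 : ℝ≥0∞)⁻¹ *
      ((∫⁻ t, f (d.α false t) ∂d.lam + ∫⁻ t, f (d.β false t) ∂d.lam
        + ∫⁻ t, f (d.γ false t) ∂d.lam) +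
       (∫⁻ t, f (d.α true t) ∂d.lam + ∫⁻ t, f (d.β true t) ∂d.lam
        + ∫⁻ t, f (d.γ true t) ∂d.lam)) := by
  unfold mu
  rw [lintegral_smul_measure]
  simp only [lintegral_add_measure, smul_eq_mul]
  rw [lintegral_map hf (d.hα _), lintegral_map hf (d.hβ _), lintegral_map hf (d.hγ _),
    lintegral_map hf (d.hα _), lintegral_map hf (d.hβ _), lintegral_map hf (d.hγ _)]

lemma lintegral_plan {f : X × X × X → ℝ≥0∞} (hf : Measurable f) :
    ∫⁻ x, f x ∂d.plan = (6 : ℝ≥0∞)⁻¹ *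
      ((∫⁻ t, f (d.α false t, d.β false t, d.γ false t) ∂d.lam +
        ∫⁻ t, f (d.β false t, d.γ false t, d.α false t) ∂d.lam +
        ∫⁻ t, f (d.γ false t, d.α false t, d.β false t) ∂d.lam) +
       (∫⁻ t, f (d.α true t, d.β true t, d.γ true t) ∂d.lam +
        ∫⁻ t, f (d.β true t, d.γ true t, d.α true t) ∂d.lam +
        ∫⁻ t, f (d.γ true t, d.α true t, d.β true t) ∂d.lam)) := by
  unfold plan
  rw [lintegral_smul_measure]
  simp only [lintegral_add_measure, smul_eq_mul]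
  rw [lintegral_map hf ((d.hα _).prodMk ((d.hβ _).prodMk (d.hγ _))),
    lintegral_map hf ((d.hβ _).prodMk ((d.hγ _).prodMk (d.hα _))),
    lintegral_map hf ((d.hγ _).prodMk ((d.hα _).prodMk (d.hβ _))),
    lintegral_map hf ((d.hα _).prodMk ((d.hβ _).prodMk (d.hγ _))),
    lintegral_map hf ((d.hβ _).prodMk ((d.hγ _).prodMk (d.hα _))),
    lintegral_map hf ((d.hγ _).prodMk ((d.hα _).prodMk (d.hβ _)))]

lemma plan_coupling : IsCoupling3 d.mu d.plan := by
  have h1 : d.plan.map (fun p => p.1) = d.mu := by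
    refine Measure.ext_of_lintegral _ (fun f hf => ?_)
    rw [lintegral_map hf measurable_fst,
      d.lintegral_plan (f := fun p => f p.1) (hf.comp measurable_fst), d.lintegral_mu hf]
  have h2 : d.plan.map (fun p => p.2.1) = d.mu := by
    refine Measure.ext_of_lintegral _ (fun f hf => ?_)
    have m : Measurable (fun p : X × X × X => p.2.1) := measurable_fst.comp measurable_snd
    rw [lintegral_map hf m,
      d.lintegral_plan (f := fun p => f p.2.1) (hf.comp m), d.lintegral_mu hf]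
    ring
  have h3 : d.plan.map (fun p => p.2.2) = d.mu := by
    refine Measure.ext_of_lintegral _ (fun f hf => ?_)
    have m : Measurable (fun p : X × X × X => p.2.2) := measurable_snd.comp measurable_snd
    rw [lintegral_map hf m,
      d.lintegral_plan (f := fun p => f p.2.2) (hf.comp m), d.lintegral_mu hf]
    ring
  refine ⟨⟨?_⟩, h1, h2, h3⟩
  have := congrArg (fun m : Measure X => m univ) h1
  simp only [measure_univ] at this
  rwa [Measure.map_apply measurable_fst MeasurableSet.univ, preimage_univ] at this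

lemma lintegral_cost_add {π : Measure (X × X × X)} (hπ : IsCoupling3 d.mu π) :
    ∫⁻ p, (c p.1 p.2.1 p.2.2 + d.M) ∂π = ∫⁻ p, c p.1 p.2.1 p.2.2 ∂π + d.M := by
  have := hπ.prob
  rw [lintegral_add_left d.hc]
  simp

lemma lintegral_u_coupling {π : Measure (X × X × X)} (hπ : IsCoupling3 d.mu π) :
    ∫⁻ p, (d.u p.1 + d.u p.2.1 + d.u p.2.2) ∂π = 3 * ∫⁻ x, d.u x ∂d.mu := by
  have m1 : Measurable (fun p : X × X × X => d.u p.1) := d.hu.comp measurable_fst
  have m2 : Measurable (fun p : X × X × X => d.u p.2.1) :=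
    d.hu.comp (measurable_fst.comp measurable_snd)
  have m3 : Measurable (fun p : X × X × X => d.u p.2.2) :=
    d.hu.comp (measurable_snd.comp measurable_snd)
  rw [lintegral_add_left (f := fun p : X × X × X => d.u p.1 + d.u p.2.1) (m1.add m2),
    lintegral_add_left m1]
  have e1 : ∫⁻ p, d.u p.1 ∂π = ∫⁻ x, d.u x ∂d.mu := by
    rw [← hπ.fst, lintegral_map d.hu measurable_fst]
  have e2 : ∫⁻ p, d.u p.2.1 ∂π = ∫⁻ x, d.u x ∂d.mu := by
    conv_rhs => rw [← hπ.snd]
    rw [lintegral_map d.hu (f := d.u) (g := fun p : X × X × X => p.2.1)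
      (measurable_fst.comp measurable_snd)]
  have e3 : ∫⁻ p, d.u p.2.2 ∂π = ∫⁻ x, d.u x ∂d.mu := by
    conv_rhs => rw [← hπ.trd]
    rw [lintegral_map d.hu (f := d.u) (g := fun p : X × X × X => p.2.2)
      (measurable_snd.comp measurable_snd)]
  rw [e1, e2, e3]
  ring

lemma coupling_ae_mem {π : Measure (X × X × X)} (hπ : IsCoupling3 d.mu π) :
    ∀ᵐ p ∂π, p.1 ∈ d.S ∧ p.2.1 ∈ d.S ∧ p.2.2 ∈ d.S := by
  have h := d.ae_mem_S
  have h1 : ∀ᵐ p ∂π, p.1 ∈ d.S := by
    have := h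
    rw [← hπ.fst] at this
    exact ae_of_ae_map measurable_fst.aemeasurable this
  have h2 : ∀ᵐ p ∂π, p.2.1 ∈ d.S := by
    have := h
    rw [← hπ.snd] at this
    exact ae_of_ae_map (measurable_fst.comp measurable_snd).aemeasurable this
  have h3 : ∀ᵐ p ∂π, p.2.2 ∈ d.S := by
    have := h
    rw [← hπ.trd] at this
    exact ae_of_ae_map (measurable_snd.comp measurable_snd).aemeasurable this
  filter_upwards [h1, h2, h3] with p a b c using ⟨a, b, c⟩

lemma lower_bound {π : Measure (X × X × X)} (hπ : IsCoupling3 d.mu π) :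
    3 * ∫⁻ x, d.u x ∂d.mu ≤ ∫⁻ p, c p.1 p.2.1 p.2.2 ∂π + d.M := by
  rw [← d.lintegral_u_coupling hπ, ← d.lintegral_cost_add hπ]
  refine lintegral_mono_ae ?_
  filter_upwards [d.coupling_ae_mem hπ] with p hp
  exact d.hge _ hp.1 _ hp.2.1 _ hp.2.2

lemma plan_value : ∫⁻ p, c p.1 p.2.1 p.2.2 ∂d.plan + d.M = 3 * ∫⁻ x, d.u x ∂d.mu := by
  rw [← d.lintegral_cost_add d.plan_coupling, ← d.lintegral_u_coupling d.plan_coupling,
    d.lintegral_plan (f := fun p => c p.1 p.2.1 p.2.2 + d.M) (d.hc.add measurable_const),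
    d.lintegral_plan (f := fun p => d.u p.1 + d.u p.2.1 + d.u p.2.2)]
  · have key : ∀ i, ∀ᵐ t ∂d.lam, c (d.α i t) (d.β i t) (d.γ i t) + d.M =
        d.u (d.α i t) + d.u (d.β i t) + d.u (d.γ i t) := by
      intro i
      filter_upwards [d.ae_mem_U] with t ht
      exact d.hcontact i t ht
    have e1 : ∀ i, ∫⁻ t, (c (d.α i t) (d.β i t) (d.γ i t) + d.M) ∂d.lam =
        ∫⁻ t, (d.u (d.α i t) + d.u (d.β i t) + d.u (d.γ i t)) ∂d.lam := by
      intro i
      exact lintegral_congr_ae (key i)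
    have e2 : ∀ i, ∫⁻ t, (c (d.β i t) (d.γ i t) (d.α i t) + d.M) ∂d.lam =
        ∫⁻ t, (d.u (d.β i t) + d.u (d.γ i t) + d.u (d.α i t)) ∂d.lam := by
      intro i
      refine lintegral_congr_ae ?_
      filter_upwards [key i] with t ht
      rw [← d.csymm1 (d.α i t) (d.β i t) (d.γ i t), ht]
      ring
    have e3 : ∀ i, ∫⁻ t, (c (d.γ i t) (d.α i t) (d.β i t) + d.M) ∂d.lam =
        ∫⁻ t, (d.u (d.γ i t) + d.u (d.α i t) + d.u (d.β i t)) ∂d.lam := by
      intro i
      refine lintegral_congr_ae ?_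
      filter_upwards [key i] with t ht
      rw [d.csymm1 (d.γ i t) (d.α i t) (d.β i t), ht]
      ring
    simp only [e1, e2, e3]
  · have m1 : Measurable (fun p : X × X × X => d.u p.1) := d.hu.comp measurable_fst
    have m2 : Measurable (fun p : X × X × X => d.u p.2.1) :=
      d.hu.comp (measurable_fst.comp measurable_snd)
    have m3 : Measurable (fun p : X × X × X => d.u p.2.2) :=
      d.hu.comp (measurable_snd.comp measurable_snd)
    exact (m1.add m2).add m3

lemma lintegral_u_ne_top : ∫⁻ x, d.u x ∂d.mu ≠ ∞ := by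
  have : ∫⁻ x, d.u x ∂d.mu ≤ ∫⁻ _, d.bound ∂d.mu := lintegral_mono d.hub
  rw [lintegral_const, measure_univ, mul_one] at this
  exact ne_top_of_le_ne_top d.hbound this

lemma kant_add : kant c d.mu + d.M = 3 * ∫⁻ x, d.u x ∂d.mu := by
  apply le_antisymm
  · rw [← d.plan_value]
    gcongr
    exact iInf₂_le d.plan d.plan_coupling
  · have : 3 * ∫⁻ x, d.u x ∂d.mu - d.M ≤ kant c d.mu := by
      refine le_iInf₂ (fun π hπ => ?_)
      exact tsub_le_iff_right.2 (d.lower_bound hπ)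
    exact tsub_le_iff_right.1 this

lemma kant_ne_top : kant c d.mu ≠ ∞ := by
  intro h
  have := d.kant_add
  rw [h, top_add] at this
  exact (ENNReal.mul_ne_top (by norm_num) d.lintegral_u_ne_top) this.symm

lemma map_image_eq {f : X → X} (hf : Measurable f) (inj : InjOn f d.U) {D : Set X}
    (hDU : D ⊆ d.U) (mD : MeasurableSet (f '' D)) : d.lam.map f (f '' D) = d.lam D := by
  rw [Measure.map_apply hf mD]
  refine measure_congr ?_
  filter_upwards [d.ae_mem_U] with t ht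
  refine propext ⟨?_, ?_⟩
  · rintro ⟨s, hs, hst⟩
    have := inj (hDU hs) ht hst
    rwa [← this]
  · intro h
    exact ⟨t, h, rfl⟩

lemma map_zero {f : X → X} (hf : Measurable f) {S' : Set X} (hS : MapsTo f d.U S') {E : Set X}
    (mE : MeasurableSet E) (hdis : Disjoint S' E) : d.lam.map f E = 0 := by
  rw [Measure.map_apply hf mE]
  refine measure_mono_null ?_ d.hlam
  intro t ht htU
  exact (Set.disjoint_left.1 hdis) (hS htU) ht

/-- The contact property. -/
def Contact (x y z : X) : Prop :=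
  ∃ i, ∃ t ∈ d.U, IsPerm3 (d.α i t) (d.β i t) (d.γ i t) x y z

section Monge

variable {T2 T3 : X → X} (h2 : Measurable T2) (h3 : Measurable T3)
  (m2 : d.mu.map T2 = d.mu) (m3 : d.mu.map T3 = d.mu)
  (hopt : ∫⁻ x, c x (T2 x) (T3 x) ∂d.mu = kant c d.mu)

include h2 h3 m2 m3 hopt

lemma monge_contact : ∀ᵐ x ∂d.mu, d.Contact x (T2 x) (T3 x) := by
  have a1 : ∀ᵐ x ∂d.mu, T2 x ∈ d.S := by
    have := d.ae_mem_S
    rw [← m2] at this
    exact ae_of_ae_map h2.aemeasurable this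
  have a2 : ∀ᵐ x ∂d.mu, T3 x ∈ d.S := by
    have := d.ae_mem_S
    rw [← m3] at this
    exact ae_of_ae_map h3.aemeasurable this
  have mc : Measurable (fun x => c x (T2 x) (T3 x)) :=
    d.hc.comp (measurable_id.prodMk (h2.prodMk h3))
  have hle : (fun x => d.u x + d.u (T2 x) + d.u (T3 x)) ≤ᵐ[d.mu]
      (fun x => c x (T2 x) (T3 x) + d.M) := by
    filter_upwards [d.ae_mem_S, a1, a2] with x hx hx1 hx2
    exact d.hge _ hx _ hx1 _ hx2
  have hint : ∫⁻ x, (d.u x + d.u (T2 x) + d.u (T3 x)) ∂d.mu = 3 * ∫⁻ x, d.u x ∂d.mu := by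
    rw [lintegral_add_left (f := fun x => d.u x + d.u (T2 x)) (d.hu.add (d.hu.comp h2)),
      lintegral_add_left d.hu]
    have e2 : ∫⁻ x, d.u (T2 x) ∂d.mu = ∫⁻ x, d.u x ∂d.mu := by
      conv_rhs => rw [← m2]
      rw [lintegral_map d.hu h2]
    have e3 : ∫⁻ x, d.u (T3 x) ∂d.mu = ∫⁻ x, d.u x ∂d.mu := by
      conv_rhs => rw [← m3]
      rw [lintegral_map d.hu h3]
    rw [e2, e3]
    ring
  have hint2 : ∫⁻ x, (c x (T2 x) (T3 x) + d.M) ∂d.mu = 3 * ∫⁻ x, d.u x ∂d.mu := by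
    rw [lintegral_add_left mc, hopt, lintegral_const, measure_univ, mul_one, d.kant_add]
  have hae := ae_eq_of_ae_le_of_lintegral_le hle
    (by rw [hint]; exact ENNReal.mul_ne_top (by norm_num) d.lintegral_u_ne_top)
    (mc.add measurable_const).aemeasurable (by rw [hint, hint2])
  filter_upwards [hae, d.ae_mem_S, a1, a2] with x hx hxS hx1 hx2
  exact d.heq _ hxS _ hx1 _ hx2 hx

lemma type_null [StandardBorelSpace X] (i : Bool) :
    d.lam.map (d.α i) (d.SA ∩ T2 ⁻¹' (d.SB i ∪ d.SC i))ᶜ = 0 := by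
  set A : Set X := d.SA ∩ T2 ⁻¹' (d.SB i ∪ d.SC i) with hA
  have mA : MeasurableSet A := d.mSA.inter (h2 ((d.mSB i).union (d.mSC i)))
  set D : Set X := d.U \ (d.α i) ⁻¹' A with hD
  have mD : MeasurableSet D := d.hU.diff ((d.hα i) mA)
  have hDU : D ⊆ d.U := sdiff_subset
  -- the images of `D`
  have mC : MeasurableSet (d.γ i '' D) :=
    mD.image_of_measurable_injOn (d.hγ i) ((d.injγ i).mono hDU)
  have mB : MeasurableSet (d.β i '' D) :=
    mD.image_of_measurable_injOn (d.hβ i) ((d.injβ i).mono hDU)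
  have hCsub : d.γ i '' D ⊆ d.SC i := by
    rintro _ ⟨t, ht, rfl⟩
    exact d.mapγ i (hDU ht)
  have hBsub : d.β i '' D ⊆ d.SB i := by
    rintro _ ⟨t, ht, rfl⟩
    exact d.mapβ i (hDU ht)
  have disjAB : ∀ j, ∀ x ∈ d.SA, x ∉ d.SB j := fun j x h h' =>
    (Set.disjoint_left.1 (d.dAB j)) h h'
  have disjAC : ∀ j, ∀ x ∈ d.SA, x ∉ d.SC j := fun j x h h' =>
    (Set.disjoint_left.1 (d.dAC j)) h h'
  have disjBC : ∀ j k, ∀ x ∈ d.SB j, x ∉ d.SC k := fun j k x h h' =>
    (Set.disjoint_left.1 (d.dBC j k)) h h'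
  have disjCC : ∀ j k, j ≠ k → ∀ x ∈ d.SC j, x ∉ d.SC k := by
    intro j k hjk x h h'
    cases j <;> cases k
    · exact hjk rfl
    · exact (Set.disjoint_left.1 d.dCC) h h'
    · exact (Set.disjoint_left.1 d.dCC) h' h
    · exact hjk rfl
  have disjBB : ∀ j k, j ≠ k → ∀ x ∈ d.SB j, x ∉ d.SB k := by
    intro j k hjk x h h'
    cases j <;> cases k
    · exact hjk rfl
    · exact (Set.disjoint_left.1 d.dBB) h h'
    · exact (Set.disjoint_left.1 d.dBB) h' h
    · exact hjk rfl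
  -- pointwise inequality
  have hpt : ∀ᵐ x ∂d.mu, (d.γ i '' D).indicator (1 : X → ℝ≥0∞) x +
      (d.γ i '' D).indicator (1 : X → ℝ≥0∞) (T2 x) +
      (d.γ i '' D).indicator (1 : X → ℝ≥0∞) (T3 x) ≤
      (d.γ i '' D).indicator (1 : X → ℝ≥0∞) x + (d.β i '' D).indicator (1 : X → ℝ≥0∞) x := by
    filter_upwards [d.monge_contact h2 h3 m2 m3 hopt] with x hx
    obtain ⟨j, t, ht, hperm⟩ := hx
    have hαt := d.mapα j ht
    have hβt := d.mapβ j ht
    have hγt := d.mapγ j ht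
    have nα : d.α j t ∉ d.γ i '' D := fun h => disjAC i _ hαt (hCsub h)
    have nβ : d.β j t ∉ d.γ i '' D := fun h => disjBC j i _ hβt (hCsub h)
    have iα : (d.γ i '' D).indicator (1 : X → ℝ≥0∞) (d.α j t) = 0 := indicator_of_notMem nα _
    have iβ : (d.γ i '' D).indicator (1 : X → ℝ≥0∞) (d.β j t) = 0 := indicator_of_notMem nβ _
    have main : x = d.γ j t ∨
        ((d.γ i '' D).indicator (1 : X → ℝ≥0∞) (d.γ j t) ≤
          (d.β i '' D).indicator (1 : X → ℝ≥0∞) x) := by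
      by_cases hij : d.γ j t ∈ d.γ i '' D
      · have hji : j = i := by
          by_contra hne
          exact disjCC j i hne _ hγt (hCsub hij)
        subst hji
        have htD : t ∈ D := by
          obtain ⟨s, hs, hst⟩ := hij
          have := d.injγ j (hDU hs) ht hst
          rwa [← this]
        have hcase : x = d.α j t ∧ (T2 x = d.β j t ∨ T2 x = d.γ j t) ∨ x = d.β j t ∨
            x = d.γ j t := by
          rcases hperm with h | h | h | h | h | h
          · exact Or.inl ⟨h.1, Or.inl h.2.1⟩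
          · exact Or.inl ⟨h.1, Or.inr h.2.1⟩
          · exact Or.inr (Or.inl h.1)
          · exact Or.inr (Or.inl h.1)
          · exact Or.inr (Or.inr h.1)
          · exact Or.inr (Or.inr h.1)
        rcases hcase with ⟨hx1, hx2⟩ | hx1 | hx1
        · exfalso
          apply htD.2
          have : x ∈ A := by
            refine ⟨by rw [hx1]; exact hαt, ?_⟩
            rcases hx2 with h | h
            · left; rw [h]; exact hβt
            · right; rw [h]; exact hγt
          rw [hx1] at this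
          exact this
        · right
          have : x ∈ d.β j '' D := ⟨t, htD, hx1.symm⟩
          rw [indicator_of_mem hij, indicator_of_mem this]
          rfl
        · left; exact hx1
      · right
        rw [indicator_of_notMem hij]
        exact zero_le
    rcases hperm with ⟨e1, e2, e3⟩ | ⟨e1, e2, e3⟩ | ⟨e1, e2, e3⟩ | ⟨e1, e2, e3⟩ |
      ⟨e1, e2, e3⟩ | ⟨e1, e2, e3⟩
    all_goals
      rw [e2, e3]
      rcases main with hm | hm
      · first
          | (rw [e1, iα, iβ] ; simp ; done)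
          | (rw [← hm, e1] ; simp [iα, iβ])
      · first
          | (rw [iβ] ; simpa using add_le_add le_rfl hm)
          | (rw [iα] ; simpa using add_le_add le_rfl hm)
          | (rw [iα, iβ] ; simp)
  have mu_C : d.mu (d.γ i '' D) = (6 : ℝ≥0∞)⁻¹ * d.lam D := by
    unfold mu
    simp only [Measure.smul_apply, Measure.add_apply, smul_eq_mul]
    cases i
    · rw [d.map_image_eq (d.hγ _) (d.injγ _) hDU mC,
        d.map_zero (d.hα false) (d.mapα false) mC ((d.dAC _).mono_right hCsub),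
        d.map_zero (d.hα true) (d.mapα true) mC ((d.dAC _).mono_right hCsub),
        d.map_zero (d.hβ false) (d.mapβ false) mC ((d.dBC _ _).mono_right hCsub),
        d.map_zero (d.hβ true) (d.mapβ true) mC ((d.dBC _ _).mono_right hCsub),
        d.map_zero (d.hγ true) (d.mapγ true) mC (d.dCC.symm.mono_right hCsub)]
      simp
    · rw [d.map_image_eq (d.hγ _) (d.injγ _) hDU mC,
        d.map_zero (d.hα false) (d.mapα false) mC ((d.dAC _).mono_right hCsub),
        d.map_zero (d.hα true) (d.mapα true) mC ((d.dAC _).mono_right hCsub),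
        d.map_zero (d.hβ false) (d.mapβ false) mC ((d.dBC _ _).mono_right hCsub),
        d.map_zero (d.hβ true) (d.mapβ true) mC ((d.dBC _ _).mono_right hCsub),
        d.map_zero (d.hγ false) (d.mapγ false) mC (d.dCC.mono_right hCsub)]
      simp
  have mu_B : d.mu (d.β i '' D) = (6 : ℝ≥0∞)⁻¹ * d.lam D := by
    unfold mu
    simp only [Measure.smul_apply, Measure.add_apply, smul_eq_mul]
    cases i
    · rw [d.map_image_eq (d.hβ _) (d.injβ _) hDU mB,
        d.map_zero (d.hα false) (d.mapα false) mB ((d.dAB _).mono_right hBsub),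
        d.map_zero (d.hα true) (d.mapα true) mB ((d.dAB _).mono_right hBsub),
        d.map_zero (d.hγ false) (d.mapγ false) mB ((d.dBC _ _).symm.mono_right hBsub),
        d.map_zero (d.hγ true) (d.mapγ true) mB ((d.dBC _ _).symm.mono_right hBsub),
        d.map_zero (d.hβ true) (d.mapβ true) mB (d.dBB.symm.mono_right hBsub)]
      simp
    · rw [d.map_image_eq (d.hβ _) (d.injβ _) hDU mB,
        d.map_zero (d.hα false) (d.mapα false) mB ((d.dAB _).mono_right hBsub),
        d.map_zero (d.hα true) (d.mapα true) mB ((d.dAB _).mono_right hBsub),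
        d.map_zero (d.hγ false) (d.mapγ false) mB ((d.dBC _ _).symm.mono_right hBsub),
        d.map_zero (d.hγ true) (d.mapγ true) mB ((d.dBC _ _).symm.mono_right hBsub),
        d.map_zero (d.hβ false) (d.mapβ false) mB (d.dBB.mono_right hBsub)]
      simp
  have mi : Measurable ((d.γ i '' D).indicator (1 : X → ℝ≥0∞)) := measurable_one.indicator mC
  have mj : Measurable ((d.β i '' D).indicator (1 : X → ℝ≥0∞)) := measurable_one.indicator mB
  have hint := lintegral_mono_ae hpt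
  rw [lintegral_add_left (f := fun x => (d.γ i '' D).indicator (1 : X → ℝ≥0∞) x +
      (d.γ i '' D).indicator (1 : X → ℝ≥0∞) (T2 x)) (mi.add (mi.comp h2)),
    lintegral_add_left mi, lintegral_add_left mi] at hint
  have e0 : ∫⁻ x, (d.γ i '' D).indicator (1 : X → ℝ≥0∞) x ∂d.mu = d.mu (d.γ i '' D) :=
    lintegral_indicator_one mC
  have e1 : ∫⁻ x, (d.β i '' D).indicator (1 : X → ℝ≥0∞) x ∂d.mu = d.mu (d.β i '' D) :=
    lintegral_indicator_one mB
  have e2 : ∫⁻ x, (d.γ i '' D).indicator (1 : X → ℝ≥0∞) (T2 x) ∂d.mu = d.mu (d.γ i '' D) := by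
    rw [← lintegral_map mi h2, m2, e0]
  have e3 : ∫⁻ x, (d.γ i '' D).indicator (1 : X → ℝ≥0∞) (T3 x) ∂d.mu = d.mu (d.γ i '' D) := by
    rw [← lintegral_map mi h3, m3, e0]
  rw [e0, e1, e2, e3, mu_C, mu_B] at hint
  have hfin : (6 : ℝ≥0∞)⁻¹ * d.lam D ≠ ∞ :=
    ENNReal.mul_ne_top (by simp) (measure_ne_top _ _)
  have hzero : (6 : ℝ≥0∞)⁻¹ * d.lam D = 0 := by
    have h2fin : (6 : ℝ≥0∞)⁻¹ * d.lam D + (6 : ℝ≥0∞)⁻¹ * d.lam D ≠ ∞ :=
      ENNReal.add_ne_top.2 ⟨hfin, hfin⟩
    have := ENNReal.le_of_add_le_add_left (a := (6 : ℝ≥0∞)⁻¹ * d.lam D + (6 : ℝ≥0∞)⁻¹ * d.lam D)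
      h2fin (b := (6 : ℝ≥0∞)⁻¹ * d.lam D) (c := 0) (by simpa using hint)
    exact le_antisymm this zero_le
  have hD0 : d.lam D = 0 := by
    rcases mul_eq_zero.1 hzero with h | h
    · exact absurd h (by simp)
    · exact h
  rw [Measure.map_apply (d.hα i) mA.compl]
  have hsub : (d.α i) ⁻¹' Aᶜ ⊆ D ∪ d.Uᶜ := by
    intro t ht
    by_cases htU : t ∈ d.U
    · left; exact ⟨htU, ht⟩
    · right; exact htU
  refine measure_mono_null hsub ?_
  exact measure_union_null hD0 d.hlam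

theorem no_monge [StandardBorelSpace X] : False := by
  apply d.hns
  have h0 := d.type_null h2 h3 m2 m3 hopt false
  have h1 := d.type_null h2 h3 m2 m3 hopt true
  set A0 : Set X := d.SA ∩ T2 ⁻¹' (d.SB false ∪ d.SC false) with hA0
  set A1 : Set X := d.SA ∩ T2 ⁻¹' (d.SB true ∪ d.SC true) with hA1
  have mA0 : MeasurableSet A0 := d.mSA.inter (h2 ((d.mSB _).union (d.mSC _)))
  refine ⟨A0ᶜ, mA0.compl, h0, ?_⟩
  rw [compl_compl]
  refine measure_mono_null ?_ h1
  rintro x ⟨_, hx0⟩ ⟨_, hx1⟩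
  rcases hx0 with hx0 | hx0 <;> rcases hx1 with hx1 | hx1
  · exact (Set.disjoint_left.1 d.dBB) hx0 hx1
  · exact (Set.disjoint_left.1 (d.dBC _ _)) hx0 hx1
  · exact (Set.disjoint_left.1 (d.dBC _ _)) hx1 hx0
  · exact (Set.disjoint_left.1 d.dCC) hx0 hx1

end Monge

end Data

end Abstract

end Vale.Agent.P121
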