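import Mathlib

open MeasureTheory Set Filter
open scoped ENNReal Topology RealInnerProductSpace

namespace Vale.Agent.P121

section Calc

variable {E : Type*} [NormedAddCommGroup E] [InnerProductSpace ℝ E]

/-- The Coulomb field `x / |x|^3`. -/
noncomputable def Ef (x : E) : E := (‖x‖ ^ 3)⁻¹ • x

lemma sq_rpow_neg_half (r : ℝ) (hr : 0 ≤ r) : (r ^ 2) ^ (-(1 / 2) : ℝ) = r⁻¹ := by
  rw [← Real.rpow_natCast, ← Real.rpow_mul hr]
  norm_num
  rw [Real.rpow_neg_one]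

lemma sq_rpow_neg_three_half (r : ℝ) (hr : 0 ≤ r) : (r ^ 2) ^ (-(3 / 2) : ℝ) = (r ^ 3)⁻¹ := by
  rw [← Real.rpow_natCast, ← Real.rpow_mul hr, ← Real.rpow_natCast, ← Real.rpow_neg hr]
  norm_num

lemma hasStrictFDerivAt_inv_norm {x : E} (hx : x ≠ 0) :
    HasStrictFDerivAt (fun y : E => ‖y‖⁻¹) (-(‖x‖ ^ 3)⁻¹ • innerSL ℝ x) x := by
  have hx' : ‖x‖ ^ 2 ≠ 0 := by positivity
  have h := (hasStrictFDerivAt_norm_sq x).rpow_const (p := -(1 / 2)) (Or.inl hx')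
  have e : (fun y : E => ‖y‖⁻¹) = fun y : E => (‖y‖ ^ 2) ^ (-(1 / 2) : ℝ) := by
    funext y; rw [sq_rpow_neg_half _ (norm_nonneg _)]
  rw [e]
  convert! h using 1
  have : (-(1 / 2) - 1 : ℝ) = -(3 / 2) := by norm_num
  rw [this, sq_rpow_neg_three_half _ (norm_nonneg _)]
  ext v
  simp
  ring

lemma hasStrictFDerivAt_Ef {x : E} (hx : x ≠ 0) :
    HasStrictFDerivAt (Ef : E → E)
      ((‖x‖ ^ 3)⁻¹ • ContinuousLinearMap.id ℝ E -
        (3 * (‖x‖ ^ 5)⁻¹) • ((innerSL ℝ x).smulRight x)) x := by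
  have hx0 : ‖x‖ ≠ 0 := norm_ne_zero_iff.2 hx
  have hx' : ‖x‖ ^ 2 ≠ 0 := by positivity
  have h := ((hasStrictFDerivAt_norm_sq x).rpow_const (p := -(3 / 2)) (Or.inl hx')).smul
    (hasStrictFDerivAt_id x)
  have e : (Ef : E → E) = fun y : E => ((‖y‖ ^ 2) ^ (-(3 / 2) : ℝ)) • id y := by
    funext y; rw [sq_rpow_neg_three_half _ (norm_nonneg _)]; rfl
  rw [e]
  convert! h using 1
  have h5 : (‖x‖ ^ 2) ^ (-(3 / 2) - 1 : ℝ) = (‖x‖ ^ 5)⁻¹ := by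
    rw [← Real.rpow_natCast, ← Real.rpow_mul (norm_nonneg x), ← Real.rpow_natCast,
      ← Real.rpow_neg (norm_nonneg x)]
    norm_num
  rw [h5, sq_rpow_neg_three_half _ (norm_nonneg _)]
  ext v
  simp only [sub_apply, smul_apply, ContinuousLinearMap.id_apply,
    ContinuousLinearMap.smulRight_apply, innerSL_apply_apply, add_apply, id_eq, smul_eq_mul,
    nsmul_eq_mul]
  module

lemma contDiffAt_Ef {n : WithTop ℕ∞} {x : E} (hx : x ≠ 0) : ContDiffAt ℝ n (Ef : E → E) x := by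
  unfold Ef
  have h1 : ContDiffAt ℝ n (fun x : E => ‖x‖ ^ 3) x := (contDiffAt_norm ℝ hx).pow 3
  have h2 : ContDiffAt ℝ n (fun x : E => (‖x‖ ^ 3)⁻¹) x := h1.inv (by simpa using hx)
  exact h2.smul contDiffAt_id

end Calc

end Vale.Agent.P121
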