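import Vale.Agent.P121.Energy

open MeasureTheory Set Filter
open scoped ENNReal Topology RealInnerProductSpace

namespace Vale.Agent.P121

section Core

variable {E : Type*} [NormedAddCommGroup E] [InnerProductSpace ℝ E] [FiniteDimensional ℝ E]
  [MeasurableSpace E] [BorelSpace E]

lemma contDiffAt_G {e : E} (he : ‖e‖ = 1) : ContDiffAt ℝ 1 (G e) (-e, (0, e)) := by
  have hne : e ≠ 0 := by
    intro h; rw [h, norm_zero] at he; exact zero_ne_one he
  have h2ne : e - -e ≠ 0 := by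
    have : e - -e = (2 : ℝ) • e := by module
    rw [this]
    exact smul_ne_zero (by norm_num) hne
  have hc : ContDiffAt ℝ 1 (fun p : E × (E × E) => p.1) (-e, (0, e)) := contDiffAt_fst
  have ha : ContDiffAt ℝ 1 (fun p : E × (E × E) => p.2.1) (-e, (0, e)) := contDiffAt_snd.fst
  have hb : ContDiffAt ℝ 1 (fun p : E × (E × E) => p.2.2) (-e, (0, e)) := contDiffAt_snd.snd
  have k1 : ContDiffAt ℝ 1 (fun p : E × (E × E) => Ef (p.2.1 - p.2.2)) (-e, (0, e)) :=
    ContDiffAt.comp (g := Ef) (f := fun p : E × (E × E) => p.2.1 - p.2.2) (-e, (0, e))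
      (contDiffAt_Ef (by simpa using hne)) (ha.sub hb)
  have k2 : ContDiffAt ℝ 1 (fun p : E × (E × E) => Ef (p.2.1 - p.1)) (-e, (0, e)) :=
    ContDiffAt.comp (g := Ef) (f := fun p : E × (E × E) => p.2.1 - p.1) (-e, (0, e))
      (contDiffAt_Ef (by simpa using hne)) (ha.sub hc)
  have k3 : ContDiffAt ℝ 1 (fun p : E × (E × E) => Ef (p.2.2 - p.2.1)) (-e, (0, e)) :=
    ContDiffAt.comp (g := Ef) (f := fun p : E × (E × E) => p.2.2 - p.2.1) (-e, (0, e))
      (contDiffAt_Ef (by simpa using hne)) (hb.sub ha)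
  have k4 : ContDiffAt ℝ 1 (fun p : E × (E × E) => Ef (p.2.2 - p.1)) (-e, (0, e)) :=
    ContDiffAt.comp (g := Ef) (f := fun p : E × (E × E) => p.2.2 - p.1) (-e, (0, e))
      (contDiffAt_Ef (by exact h2ne)) (hb.sub hc)
  unfold G
  exact (((ha.const_smul (100 : ℝ)).sub k1).sub k2).prodMk
    (((((hb.sub contDiffAt_const).const_smul (100 : ℝ)).add contDiffAt_const).sub k3).sub k4)

lemma Fe_center {e : E} (he : ‖e‖ = 1) : Fe e (-e) 0 e = 0 := by
  have h2 : e - -e = (2 : ℝ) • e := by module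
  simp only [Fe, h2, norm_smul, zero_sub, norm_neg, he, neg_neg, norm_zero, sub_self,
    inner_zero_right]
  norm_num

theorem core (μ : Measure E) [μ.IsAddHaarMeasure] {e : E} (he : ‖e‖ = 1) :
    ∃ ρ1 : ℝ, 0 < ρ1 ∧ ∀ ρ : ℝ, 0 < ρ → ρ ≤ ρ1 → ∀ η : ℝ, 0 < η →
    ∃ (U : Set E) (a b : E → E), IsOpen U ∧ -e ∈ U ∧ U ⊆ Metric.ball (-e) ρ ∧ a (-e) = 0 ∧
      ContinuousOn a U ∧ ContinuousOn b U ∧
      MapsTo a U (Metric.ball 0 ρ) ∧ MapsTo b U (Metric.ball e ρ) ∧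
      InjOn a U ∧ InjOn b U ∧ DifferentiableOn ℝ a U ∧ IsOpen (a '' U) ∧
      (∀ N, μ N = 0 → μ (U ∩ a ⁻¹' N) = 0) ∧ (∀ N, μ N = 0 → μ (U ∩ b ⁻¹' N) = 0) ∧
      (∀ c ∈ U, |Fe e c (a c) (b c)| < η) ∧
      (∀ c ∈ U, ∀ x ∈ Metric.ball (0 : E) ρ, ∀ y ∈ Metric.ball e ρ,
        ¬ (x = a c ∧ y = b c) → Fe e c (a c) (b c) < Fe e c x y) := by
  obtain ⟨ρ0, hρ0, hmon⟩ := exists_monotone he
  refine ⟨min ρ0 (1 / 100), by positivity, ?_⟩
  intro ρ hρ hρle η hη
  have hρ1 : ρ ≤ ρ0 := hρle.trans (min_le_left _ _)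
  have hρ2 : ρ ≤ 1 / 100 := hρle.trans (min_le_right _ _)
  have cdG := contDiffAt_G he
  have hfd : fderiv ℝ (G e) (-e, (0, e)) = G' e := (hasStrictFDerivAt_G he).hasFDerivAt.fderiv
  have hinv : (fderiv ℝ (G e) (-e, (0, e)) ∘L ContinuousLinearMap.inr ℝ E (E × E)).IsInvertible := by
    rw [hfd]
    let L : (E × E) ≃L[ℝ] (E × E) := (LinearEquiv.ofInjectiveEndo
      ((G' e ∘L ContinuousLinearMap.inr ℝ E (E × E) : (E × E) →L[ℝ] (E × E)) :
        (E × E) →ₗ[ℝ] (E × E)) (G'_inr_injective (e := e))).toContinuousLinearEquiv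
    refine ⟨L, ?_⟩
    ext v <;> rfl
  set ψ := cdG.implicitFunction one_ne_zero hinv with hψ
  have ψ0 : ψ (-e) = (0, e) := cdG.implicitFunction_apply_self one_ne_zero hinv
  have ψev : ∀ᶠ c in 𝓝 (-e), G e (c, ψ c) = 0 := by
    have := cdG.eventually_apply_implicitFunction one_ne_zero hinv
    rw [G_center he] at this
    exact this
  have ψcd : ContDiffAt ℝ 1 ψ (-e) := cdG.contDiffAt_implicitFunction one_ne_zero hinv
  have ψd := cdG.hasStrictFDerivAt_implicitFunction one_ne_zero hinv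
  rw [← hψ] at ψd
  set Dψ : E →L[ℝ] E × E := -(fderiv ℝ (G e) (-e, (0, e)) ∘L
    ContinuousLinearMap.inr ℝ E (E × E)).inverse ∘L (fderiv ℝ (G e) (-e, (0, e)) ∘L
    ContinuousLinearMap.inl ℝ E (E × E)) with hDψ
  have hker : ∀ γ : E, G' e (γ, Dψ γ) = 0 := by
    intro γ
    have h1 : G' e (γ, Dψ γ) = G' e (γ, 0) + G' e (0, Dψ γ) := by
      rw [← map_add]; simp
    have h2 : G' e (0, Dψ γ) = (G' e ∘L ContinuousLinearMap.inr ℝ E (E × E)) (Dψ γ) := by
      simp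
    rw [h1, h2, hDψ, hfd]
    rw [hfd] at hinv
    simp only [neg_apply, ContinuousLinearMap.comp_apply, map_neg]
    have h3 := hinv.self_comp_inverse
    have h4 := congrArg (fun T : (E × E) →L[ℝ] (E × E) => T (G' e (γ, 0))) h3
    simp only [ContinuousLinearMap.comp_apply, ContinuousLinearMap.id_apply] at h4
    have h5 : (ContinuousLinearMap.inl ℝ E (E × E)) γ = (γ, 0) := rfl
    rw [h5, h4, add_neg_cancel]
  have injA : Function.Injective ((ContinuousLinearMap.fst ℝ E E) ∘L Dψ) := by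
    rw [injective_iff_map_eq_zero]
    intro γ hγ
    have h1 : (Dψ γ).1 = 0 := hγ
    have h2 := hker γ
    have h3 : Dψ γ = (0, (Dψ γ).2) := Prod.ext h1 rfl
    rw [h3] at h2
    exact G'_kernel_a he h2
  have injB : Function.Injective ((ContinuousLinearMap.snd ℝ E E) ∘L Dψ) := by
    rw [injective_iff_map_eq_zero]
    intro γ hγ
    have h1 : (Dψ γ).2 = 0 := hγ
    have h2 := hker γ
    have h3 : Dψ γ = ((Dψ γ).1, 0) := Prod.ext rfl h1
    rw [h3] at h2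
    exact G'_kernel_b he h2
  obtain ⟨Va, hVao, hVa0, hVai, hVad, hVaopen, hVanull⟩ := local_diffeo μ (f := fun c => (ψ c).1)
    (x0 := -e) ψcd.fst (f' := (ContinuousLinearMap.fst ℝ E E) ∘L Dψ)
    ψd.hasFDerivAt.fst injA
  obtain ⟨Vb, hVbo, hVb0, hVbi, hVbd, hVbopen, hVbnull⟩ := local_diffeo μ (f := fun c => (ψ c).2)
    (x0 := -e) ψcd.snd (f' := (ContinuousLinearMap.snd ℝ E E) ∘L Dψ)
    ψd.hasFDerivAt.snd injB
  have ca : ContinuousAt (fun c => (ψ c).1) (-e) := ψcd.fst.continuousAt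
  have cb : ContinuousAt (fun c => (ψ c).2) (-e) := ψcd.snd.continuousAt
  have eva : ∀ᶠ c in 𝓝 (-e), (ψ c).1 ∈ Metric.ball (0 : E) ρ := by
    have : (ψ (-e)).1 = 0 := by rw [ψ0]
    have h := ca.tendsto.eventually_mem (s := Metric.ball (0 : E) ρ)
      (by rw [this]; exact Metric.ball_mem_nhds _ hρ)
    exact h
  have evb : ∀ᶠ c in 𝓝 (-e), (ψ c).2 ∈ Metric.ball e ρ := by
    have : (ψ (-e)).2 = e := by rw [ψ0]
    have h := cb.tendsto.eventually_mem (s := Metric.ball e ρ)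
      (by rw [this]; exact Metric.ball_mem_nhds _ hρ)
    exact h
  have hne : e ≠ 0 := by
    intro h; rw [h, norm_zero] at he; exact zero_ne_one he
  have h2ne : e - -e ≠ 0 := by
    have : e - -e = (2 : ℝ) • e := by module
    rw [this]
    exact smul_ne_zero (by norm_num) hne
  have cF : ContinuousAt (fun c => Fe e c (ψ c).1 (ψ c).2) (-e) := by
    unfold Fe
    have i1 : ContinuousAt (fun c => ‖(ψ c).1 - (ψ c).2‖⁻¹) (-e) :=
      ((ca.sub cb).norm).inv₀ (by simpa [ψ0] using hne)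
    have i2 : ContinuousAt (fun c => ‖(ψ c).1 - c‖⁻¹) (-e) :=
      ((ca.sub continuousAt_id).norm).inv₀ (by simpa [ψ0] using hne)
    have i3 : ContinuousAt (fun c => ‖(ψ c).2 - c‖⁻¹) (-e) := by
      have h22 : (ψ (-e)).2 = e := by rw [ψ0]
      have j3 : ContinuousAt (fun c => (ψ c).2 - c) (-e) := cb.sub continuousAt_id
      refine j3.norm.inv₀ ?_
      rw [h22]
      exact norm_ne_zero_iff.2 h2ne
    have i4 : ContinuousAt (fun c => 50 * ‖(ψ c).1‖ ^ 2) (-e) := (ca.norm.pow 2).const_mul 50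
    have i5 : ContinuousAt (fun c => 50 * ‖(ψ c).2 - e‖ ^ 2) (-e) :=
      ((cb.sub continuousAt_const).norm.pow 2).const_mul 50
    have i6 : ContinuousAt (fun c => (5 / 4 : ℝ) * ⟪e, (ψ c).2 - e⟫) (-e) :=
      (continuousAt_const.inner (cb.sub continuousAt_const)).const_mul _
    exact (((((i1.add i2).add i3).add i4).add i5).add i6).sub continuousAt_const
  have evF : ∀ᶠ c in 𝓝 (-e), |Fe e c (ψ c).1 (ψ c).2| < η := by
    have h0 : Fe e (-e) (ψ (-e)).1 (ψ (-e)).2 = 0 := by rw [ψ0]; exact Fe_center he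
    have h1 : Tendsto (fun c => |Fe e c (ψ c).1 (ψ c).2|) (𝓝 (-e)) (𝓝 0) := by
      have := cF.abs.tendsto
      rw [h0, abs_zero] at this
      exact this
    exact h1.eventually (gt_mem_nhds hη)
  obtain ⟨W, hW, hWo, hW0⟩ := mem_nhds_iff.1 (ψev.and (eva.and (evb.and evF)))
  set U : Set E := Va ∩ Vb ∩ W ∩ Metric.ball (-e) ρ with hU
  have hUo : IsOpen U := ((hVao.inter hVbo).inter hWo).inter Metric.isOpen_ball
  have hUa : U ⊆ Va := fun x hx => hx.1.1.1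
  have hUb : U ⊆ Vb := fun x hx => hx.1.1.2
  have hUW : U ⊆ W := fun x hx => hx.1.2
  refine ⟨U, fun c => (ψ c).1, fun c => (ψ c).2, hUo,
    ⟨⟨⟨hVa0, hVb0⟩, hW0⟩, Metric.mem_ball_self hρ⟩, fun x hx => hx.2, by simp [ψ0],
    (hVad.mono hUa).continuousOn, (hVbd.mono hUb).continuousOn,
    fun c hc => (hW (hUW hc)).2.1, fun c hc => (hW (hUW hc)).2.2.1,
    hVai.mono hUa, hVbi.mono hUb, hVad.mono hUa, hVaopen U hUa hUo, ?_, ?_,
    fun c hc => (hW (hUW hc)).2.2.2, ?_⟩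
  · intro N hN
    exact measure_mono_null (inter_subset_inter_left _ hUa) (hVanull N hN)
  · intro N hN
    exact measure_mono_null (inter_subset_inter_left _ hUb) (hVbnull N hN)
  · intro c hc x hx y hy hxy
    exact Fe_lt he hmon hρ1 hρ2 hc.2 (hW (hUW hc)).2.1 (hW (hUW hc)).2.2.1 hx hy
      (hW (hUW hc)).1 hxy

end Core

end Vale.Agent.P121
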