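import Vale.Agent.P121.Implicit

open MeasureTheory Set Filter
open scoped ENNReal Topology RealInnerProductSpace

namespace Vale.Agent.P121

section Energy

variable {E : Type*} [NormedAddCommGroup E] [InnerProductSpace ℝ E]

/-- Effective energy. -/
noncomputable def Fe (e c a b : E) : ℝ :=
  ‖a - b‖⁻¹ + ‖a - c‖⁻¹ + ‖b - c‖⁻¹ + 50 * ‖a‖ ^ 2 + 50 * ‖b - e‖ ^ 2
    + (5 / 4) * ⟪e, b - e⟫ - 5 / 2

lemma hasDerivAt_inv_norm_path {x : ℝ → E} {v : E} {t : ℝ} (hx : HasDerivAt x v t)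
    (h : x t ≠ 0) : HasDerivAt (fun s => ‖x s‖⁻¹) (-⟪Ef (x t), v⟫) t := by
  have := (hasStrictFDerivAt_inv_norm h).hasFDerivAt.comp_hasDerivAt t hx
  convert! this using 1
  simp [Ef, real_inner_smul_left]

lemma hasDerivAt_Fe (e c a b α β : E) (t : ℝ) (h1 : a + t • α ≠ b + t • β)
    (h2 : a + t • α ≠ c) (h3 : b + t • β ≠ c) :
    HasDerivAt (fun t : ℝ => Fe e c (a + t • α) (b + t • β))
      (⟪(G e (c, (a + t • α, b + t • β))).1, α⟫ + ⟪(G e (c, (a + t • α, b + t • β))).2, β⟫) t := by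
  have ha : HasDerivAt (fun t : ℝ => a + t • α) α t := by
    simpa using ((hasDerivAt_id t).smul_const α).const_add a
  have hb : HasDerivAt (fun t : ℝ => b + t • β) β t := by
    simpa using ((hasDerivAt_id t).smul_const β).const_add b
  have d1 := hasDerivAt_inv_norm_path (ha.sub hb) (sub_ne_zero.2 h1)
  have d2 := hasDerivAt_inv_norm_path (ha.sub_const c) (sub_ne_zero.2 h2)
  have d3 := hasDerivAt_inv_norm_path (hb.sub_const c) (sub_ne_zero.2 h3)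
  have d4 : HasDerivAt (fun t : ℝ => 50 * ‖a + t • α‖ ^ 2) (50 * (2 * ⟪a + t • α, α⟫)) t :=
    (ha.norm_sq).const_mul 50
  have d5 : HasDerivAt (fun t : ℝ => 50 * ‖b + t • β - e‖ ^ 2)
      (50 * (2 * ⟪b + t • β - e, β⟫)) t := ((hb.sub_const e).norm_sq).const_mul 50
  have d6 : HasDerivAt (fun t : ℝ => (5 / 4 : ℝ) * ⟪e, b + t • β - e⟫)
      ((5 / 4) * ⟪e, β⟫) t := by
    have := ((hasDerivAt_const t e).inner ℝ (hb.sub_const e)).const_mul (5 / 4 : ℝ)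
    simpa using this
  have := (((((d1.add d2).add d3).add d4).add d5).add d6).sub_const (5 / 2)
  convert! this using 1
  have hodd : Ef (b + t • β - (a + t • α)) = -Ef (a + t • α - (b + t • β)) := by
    rw [← Ef_neg, neg_sub]
  simp only [G, hodd, inner_sub_left, inner_add_left, inner_neg_left, real_inner_smul_left,
    inner_sub_right, Pi.sub_apply]
  ring

lemma exists_monotone {e : E} (he : ‖e‖ = 1) : ∃ ρ0 : ℝ, 0 < ρ0 ∧
    ∀ c ∈ Metric.ball (-e) ρ0, ∀ a ∈ Metric.ball (0 : E) ρ0, ∀ a' ∈ Metric.ball (0 : E) ρ0,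
      ∀ b ∈ Metric.ball e ρ0, ∀ b' ∈ Metric.ball e ρ0,
      95 * (‖a' - a‖ ^ 2 + ‖b' - b‖ ^ 2) ≤
        ⟪(G e (c, (a', b'))).1 - (G e (c, (a, b))).1, a' - a⟫ +
        ⟪(G e (c, (a', b'))).2 - (G e (c, (a, b))).2, b' - b⟫ := by
  have h := (hasStrictFDerivAt_G he).isLittleO
  have h1 := h.bound (c := 1) one_pos
  rw [nhds_prod_eq] at h1
  rw [Filter.eventually_iff, Filter.mem_prod_iff] at h1
  obtain ⟨s, hs, t, ht, hst⟩ := h1
  obtain ⟨ρ0, hρ0, hball⟩ := Metric.mem_nhds_iff.1 (Filter.inter_mem hs ht)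
  refine ⟨ρ0, hρ0, ?_⟩
  intro c hc a ha a' ha' b hb b' hb'
  have m1 : ((c, (a', b')) : E × (E × E)) ∈ s ∩ t := by
    apply hball
    rw [Metric.mem_ball] at *
    rw [Prod.dist_eq, Prod.dist_eq]
    exact max_lt hc (max_lt ha' hb')
  have m2 : ((c, (a, b)) : E × (E × E)) ∈ s ∩ t := by
    apply hball
    rw [Metric.mem_ball] at *
    rw [Prod.dist_eq, Prod.dist_eq]
    exact max_lt hc (max_lt ha hb)
  have key := hst (mk_mem_prod m1.1 m2.2)
  simp only [mem_setOf_eq, one_mul] at key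
  have hsub : ((c, (a', b')) : E × (E × E)) - (c, (a, b)) = (0, (a' - a, b' - b)) := by
    simp
  rw [hsub] at key
  set α := a' - a with hα
  set β := b' - b with hβ
  set R := G e (c, (a', b')) - G e (c, (a, b)) - G' e (0, (α, β)) with hR
  have hnorm : ‖((0 : E), (α, β))‖ = max ‖α‖ ‖β‖ := by
    rw [Prod.norm_def, Prod.norm_def]
    simp
  rw [hnorm] at key
  have hR1 : ‖R.1‖ ≤ max ‖α‖ ‖β‖ := (norm_fst_le R).trans key
  have hR2 : ‖R.2‖ ≤ max ‖α‖ ‖β‖ := (norm_snd_le R).trans key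
  have e1 : (G e (c, (a', b'))).1 - (G e (c, (a, b))).1 = R.1 + (G' e (0, (α, β))).1 := by
    simp [hR]
  have e2 : (G e (c, (a', b'))).2 - (G e (c, (a, b))).2 = R.2 + (G' e (0, (α, β))).2 := by
    simp [hR]
  rw [e1, e2, inner_add_left, inner_add_left]
  have hpos := G'_pos (e := e) α β
  have i1 : -(‖R.1‖ * ‖α‖) ≤ ⟪R.1, α⟫ := by
    have := abs_real_inner_le_norm R.1 α
    exact neg_le_of_abs_le this
  have i2 : -(‖R.2‖ * ‖β‖) ≤ ⟪R.2, β⟫ := by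
    have := abs_real_inner_le_norm R.2 β
    exact neg_le_of_abs_le this
  have j1 : ‖R.1‖ * ‖α‖ ≤ ‖α‖ ^ 2 + ‖β‖ ^ 2 := by
    have hα0 := norm_nonneg α
    have hβ0 := norm_nonneg β
    have : ‖R.1‖ ≤ ‖α‖ + ‖β‖ := hR1.trans (max_le (by linarith) (by linarith))
    have h2 : ‖R.1‖ * ‖α‖ ≤ max ‖α‖ ‖β‖ * ‖α‖ := mul_le_mul_of_nonneg_right hR1 hα0
    rcases le_total ‖α‖ ‖β‖ with hh | hh
    · rw [max_eq_right hh] at h2; nlinarith
    · rw [max_eq_left hh] at h2; nlinarith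
  have j2 : ‖R.2‖ * ‖β‖ ≤ ‖α‖ ^ 2 + ‖β‖ ^ 2 := by
    have hα0 := norm_nonneg α
    have hβ0 := norm_nonneg β
    have h2 : ‖R.2‖ * ‖β‖ ≤ max ‖α‖ ‖β‖ * ‖β‖ := mul_le_mul_of_nonneg_right hR2 hβ0
    rcases le_total ‖α‖ ‖β‖ with hh | hh
    · rw [max_eq_right hh] at h2; nlinarith
    · rw [max_eq_left hh] at h2; nlinarith
  linarith

/-- distances between points of the clusters -/
lemma ne_of_balls {p q x y : E} {ρ : ℝ} (hx : x ∈ Metric.ball p ρ) (hy : y ∈ Metric.ball q ρ)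
    (h : 2 * ρ ≤ dist p q) : x ≠ y := by
  rintro rfl
  have := dist_triangle_left p q x
  rw [Metric.mem_ball] at hx hy
  linarith

lemma Fe_lt {e : E} (he : ‖e‖ = 1) {ρ0 : ℝ}
    (hmon : ∀ c ∈ Metric.ball (-e) ρ0, ∀ a ∈ Metric.ball (0 : E) ρ0,
      ∀ a' ∈ Metric.ball (0 : E) ρ0,
      ∀ b ∈ Metric.ball e ρ0, ∀ b' ∈ Metric.ball e ρ0,
      95 * (‖a' - a‖ ^ 2 + ‖b' - b‖ ^ 2) ≤
        ⟪(G e (c, (a', b'))).1 - (G e (c, (a, b))).1, a' - a⟫ +
        ⟪(G e (c, (a', b'))).2 - (G e (c, (a, b))).2, b' - b⟫)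
    {ρ : ℝ} (hρ1 : ρ ≤ ρ0) (hρ2 : ρ ≤ 1 / 100) {c a b a' b' : E}
    (hc : c ∈ Metric.ball (-e) ρ) (ha : a ∈ Metric.ball (0 : E) ρ) (hb : b ∈ Metric.ball e ρ)
    (ha' : a' ∈ Metric.ball (0 : E) ρ) (hb' : b' ∈ Metric.ball e ρ)
    (hG : G e (c, (a, b)) = 0) (hne : ¬ (a' = a ∧ b' = b)) :
    Fe e c a b < Fe e c a' b' := by
  set α := a' - a with hα
  set β := b' - b with hβ
  have hpos : 0 < ‖α‖ ^ 2 + ‖β‖ ^ 2 := by
    by_contra hcon
    apply hne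
    have h1 : ‖α‖ ^ 2 = 0 := by nlinarith [sq_nonneg ‖α‖, sq_nonneg ‖β‖]
    have h2 : ‖β‖ ^ 2 = 0 := by nlinarith [sq_nonneg ‖α‖, sq_nonneg ‖β‖]
    have h3 : α = 0 := norm_eq_zero.1 (pow_eq_zero_iff (two_ne_zero) |>.1 h1)
    have h4 : β = 0 := norm_eq_zero.1 (pow_eq_zero_iff (two_ne_zero) |>.1 h2)
    exact ⟨sub_eq_zero.1 h3, sub_eq_zero.1 h4⟩
  have hmemA : ∀ t ∈ Icc (0 : ℝ) 1, a + t • α ∈ Metric.ball (0 : E) ρ := by
    intro t ht
    exact (convex_ball (0 : E) ρ).add_smul_sub_mem ha ha' ht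
  have hmemB : ∀ t ∈ Icc (0 : ℝ) 1, b + t • β ∈ Metric.ball e ρ := by
    intro t ht
    exact (convex_ball e ρ).add_smul_sub_mem hb hb' ht
  have dab : 2 * ρ ≤ dist (0 : E) e := by rw [dist_zero_left, he]; linarith
  have dac : 2 * ρ ≤ dist (0 : E) (-e) := by rw [dist_zero_left, norm_neg, he]; linarith
  have dbc : 2 * ρ ≤ dist e (-e) := by
    rw [dist_eq_norm, sub_neg_eq_add, ← two_smul ℝ e, norm_smul, he]
    norm_num
    linarith
  have hderiv : ∀ t ∈ Icc (0 : ℝ) 1,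
      HasDerivAt (fun t : ℝ => Fe e c (a + t • α) (b + t • β))
      (⟪(G e (c, (a + t • α, b + t • β))).1, α⟫ +
        ⟪(G e (c, (a + t • α, b + t • β))).2, β⟫) t := by
    intro t ht
    exact hasDerivAt_Fe e c a b α β t (ne_of_balls (hmemA t ht) (hmemB t ht) dab)
      (ne_of_balls (hmemA t ht) hc dac) (ne_of_balls (hmemB t ht) hc dbc)
  have hmono : StrictMonoOn (fun t : ℝ => Fe e c (a + t • α) (b + t • β)) (Icc 0 1) := by
    refine strictMonoOn_of_deriv_pos (convex_Icc 0 1) ?_ ?_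
    · intro t ht
      exact (hderiv t ht).continuousAt.continuousWithinAt
    · intro t ht
      rw [interior_Icc] at ht
      have htI : t ∈ Icc (0 : ℝ) 1 := ⟨ht.1.le, ht.2.le⟩
      rw [(hderiv t htI).deriv]
      have hsubb : ∀ p : E, Metric.ball p ρ ⊆ Metric.ball p ρ0 := fun p =>
        Metric.ball_subset_ball hρ1
      have := hmon c (hsubb _ hc) a (hsubb _ ha) (a + t • α) (hsubb _ (hmemA t htI))
        b (hsubb _ hb) (b + t • β) (hsubb _ (hmemB t htI))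
      rw [hG] at this
      simp only [Prod.fst_zero, Prod.snd_zero, sub_zero, add_sub_cancel_left, norm_smul,
        inner_smul_right, Real.norm_eq_abs, abs_of_pos ht.1, mul_pow] at this
      have h3 : 0 < t * (⟪(G e (c, (a + t • α, b + t • β))).1, α⟫ +
        ⟪(G e (c, (a + t • α, b + t • β))).2, β⟫) := by
        have h4 : 0 < t ^ 2 * (‖α‖ ^ 2 + ‖β‖ ^ 2) := mul_pos (pow_pos ht.1 2) hpos
        nlinarith
      exact (mul_pos_iff_of_pos_left ht.1).1 h3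
  have := hmono (left_mem_Icc.2 zero_le_one) (right_mem_Icc.2 zero_le_one) zero_lt_one
  simpa [hα, hβ] using this

end Energy

end Vale.Agent.P121
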