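import Vale.Agent.P121.Calculus

open MeasureTheory Set Filter
open scoped ENNReal Topology RealInnerProductSpace

namespace Vale.Agent.P121

section Grad

variable {E : Type*} [NormedAddCommGroup E] [InnerProductSpace ℝ E]

/-- `H v = 3 ⟪e, v⟫ e - v`. -/
noncomputable def Hc (e : E) : E →L[ℝ] E :=
  (3 : ℝ) • (innerSL ℝ e).smulRight e - ContinuousLinearMap.id ℝ E

lemma Hc_apply (e v : E) : Hc e v = (3 * ⟪e, v⟫) • e - v := by
  simp [Hc, smul_smul]

/-- The gradient map; variables are `(c, (a, b))`. -/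
noncomputable def G (e : E) (p : E × (E × E)) : E × E :=
  ((100 : ℝ) • p.2.1 - Ef (p.2.1 - p.2.2) - Ef (p.2.1 - p.1),
   (100 : ℝ) • (p.2.2 - e) + (5 / 4 : ℝ) • e - Ef (p.2.2 - p.2.1) - Ef (p.2.2 - p.1))

/-- The derivative of `G` at the centre. -/
noncomputable def G' (e : E) : E × (E × E) →L[ℝ] E × E :=
  let pc : E × (E × E) →L[ℝ] E := ContinuousLinearMap.fst ℝ E (E × E)
  let pa : E × (E × E) →L[ℝ] E :=
    (ContinuousLinearMap.fst ℝ E E).comp (ContinuousLinearMap.snd ℝ E (E × E))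
  let pb : E × (E × E) →L[ℝ] E :=
    (ContinuousLinearMap.snd ℝ E E).comp (ContinuousLinearMap.snd ℝ E (E × E))
  ((100 : ℝ) • pa + (Hc e).comp (pa - pb) + (Hc e).comp (pa - pc)).prod
    ((100 : ℝ) • pb + (Hc e).comp (pb - pa) + (1 / 8 : ℝ) • (Hc e).comp (pb - pc))

lemma G'_apply (e γ α β : E) : G' e (γ, (α, β)) =
    ((100 : ℝ) • α + Hc e (α - β) + Hc e (α - γ),
     (100 : ℝ) • β + Hc e (β - α) + (1 / 8 : ℝ) • Hc e (β - γ)) := by
  simp [G']

lemma hasStrictFDerivAt_Ef_unit {e : E} (he : ‖e‖ = 1) :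
    HasStrictFDerivAt (Ef : E → E) (-(Hc e)) e := by
  have hne : e ≠ 0 := by
    intro h; rw [h, norm_zero] at he; exact zero_ne_one he
  convert! hasStrictFDerivAt_Ef hne using 1
  ext v
  simp [Hc, he]

lemma Ef_neg (x : E) : Ef (-x) = -Ef x := by
  simp [Ef]

lemma hasStrictFDerivAt_Ef_neg_unit {e : E} (he : ‖e‖ = 1) :
    HasStrictFDerivAt (Ef : E → E) (-(Hc e)) (-e) := by
  have hne : -e ≠ 0 := by
    intro h; rw [neg_eq_zero] at h; rw [h, norm_zero] at he; exact zero_ne_one he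
  convert! hasStrictFDerivAt_Ef hne using 1
  ext v
  simp [Hc, he]

lemma hasStrictFDerivAt_Ef_two_unit {e : E} (he : ‖e‖ = 1) :
    HasStrictFDerivAt (Ef : E → E) (-((1 / 8 : ℝ) • Hc e)) ((2 : ℝ) • e) := by
  have hne : (2 : ℝ) • e ≠ 0 := by
    intro h
    rw [smul_eq_zero] at h
    rcases h with h | h
    · norm_num at h
    · rw [h, norm_zero] at he; exact zero_ne_one he
  convert! hasStrictFDerivAt_Ef hne using 1
  ext v
  simp only [Hc, norm_smul, he, Real.norm_eq_abs, neg_apply, smul_apply, sub_apply,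
    ContinuousLinearMap.smulRight_apply, innerSL_apply_apply, ContinuousLinearMap.id_apply,
    real_inner_smul_left]
  rw [abs_of_pos (by norm_num : (0 : ℝ) < 2)]
  norm_num
  module

lemma G_center {e : E} (he : ‖e‖ = 1) : G e (-e, (0, e)) = 0 := by
  have h2 : e - -e = (2 : ℝ) • e := by module
  simp only [G, Ef, zero_sub, sub_zero, smul_zero, sub_self, norm_neg, he, zero_add, h2,
    norm_smul, Real.norm_eq_abs, neg_neg]
  rw [abs_of_pos (by norm_num : (0 : ℝ) < 2)]
  norm_num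
  module

lemma hasStrictFDerivAt_G {e : E} (he : ‖e‖ = 1) :
    HasStrictFDerivAt (G e) (G' e) (-e, (0, e)) := by
  have hpc : HasStrictFDerivAt (fun p : E × (E × E) => p.1)
      (ContinuousLinearMap.fst ℝ E (E × E)) (-e, (0, e)) := hasStrictFDerivAt_fst
  have hpa : HasStrictFDerivAt (fun p : E × (E × E) => p.2.1)
      ((ContinuousLinearMap.fst ℝ E E).comp (ContinuousLinearMap.snd ℝ E (E × E)))
      (-e, (0, e)) := hasStrictFDerivAt_snd.fst
  have hpb : HasStrictFDerivAt (fun p : E × (E × E) => p.2.2)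
      ((ContinuousLinearMap.snd ℝ E E).comp (ContinuousLinearMap.snd ℝ E (E × E)))
      (-e, (0, e)) := hasStrictFDerivAt_snd.snd
  have h1 : HasStrictFDerivAt (fun p : E × (E × E) => Ef (p.2.1 - p.2.2)) _ (-e, (0, e)) :=
    HasStrictFDerivAt.comp (g := Ef) (f := fun p : E × (E × E) => p.2.1 - p.2.2) (-e, (0, e))
      (by simpa using hasStrictFDerivAt_Ef_neg_unit he) (hpa.sub hpb)
  have h2 : HasStrictFDerivAt (fun p : E × (E × E) => Ef (p.2.1 - p.1)) _ (-e, (0, e)) :=
    HasStrictFDerivAt.comp (g := Ef) (f := fun p : E × (E × E) => p.2.1 - p.1) (-e, (0, e))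
      (by simpa using hasStrictFDerivAt_Ef_unit he) (hpa.sub hpc)
  have h3 : HasStrictFDerivAt (fun p : E × (E × E) => Ef (p.2.2 - p.2.1)) _ (-e, (0, e)) :=
    HasStrictFDerivAt.comp (g := Ef) (f := fun p : E × (E × E) => p.2.2 - p.2.1) (-e, (0, e))
      (by simpa using hasStrictFDerivAt_Ef_unit he) (hpb.sub hpa)
  have h4 : HasStrictFDerivAt (fun p : E × (E × E) => Ef (p.2.2 - p.1)) _ (-e, (0, e)) :=
    HasStrictFDerivAt.comp (g := Ef) (f := fun p : E × (E × E) => p.2.2 - p.1) (-e, (0, e))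
      (by
        have := hasStrictFDerivAt_Ef_two_unit he
        have h2 : e - -e = (2 : ℝ) • e := by module
        simpa [h2] using this) (hpb.sub hpc)
  have hA := ((hpa.const_smul (100 : ℝ)).sub h1).sub h2
  have hB := (((((hpb.sub_const e).const_smul (100 : ℝ)).add_const ((5 / 4 : ℝ) • e))).sub
    h3).sub h4
  have := hA.prodMk hB
  convert! this using 1
  refine ContinuousLinearMap.ext (fun v => ?_)
  obtain ⟨γ, α, β⟩ := v
  rw [G'_apply]
  refine Prod.ext ?_ ?_
  · simp [map_sub]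
    module
  · simp [map_sub]
    module

end Grad

end Vale.Agent.P121
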