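import Vale.Agent.P121.Gradient

open MeasureTheory Set Filter
open scoped ENNReal Topology RealInnerProductSpace

namespace Vale.Agent.P121

section Lin

variable {E : Type*} [NormedAddCommGroup E] [InnerProductSpace ℝ E]

lemma Hc_inner_self {e : E} (v : E) : -‖v‖ ^ 2 ≤ ⟪Hc e v, v⟫ := by
  rw [Hc_apply, inner_sub_left, real_inner_smul_left, real_inner_self_eq_norm_sq]
  nlinarith [sq_nonneg ⟪e, v⟫]

lemma norm_Hc_sq {e : E} (he : ‖e‖ = 1) (v : E) : ‖Hc e v‖ ^ 2 = 3 * ⟪e, v⟫ ^ 2 + ‖v‖ ^ 2 := by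
  rw [Hc_apply, ← real_inner_self_eq_norm_sq, inner_sub_left, inner_sub_right, inner_sub_right,
    real_inner_smul_left, real_inner_smul_left, real_inner_smul_right, real_inner_smul_right,
    real_inner_self_eq_norm_sq, real_inner_self_eq_norm_sq, he, real_inner_comm e v]
  ring

lemma norm_Hc_le {e : E} (he : ‖e‖ = 1) (v : E) : ‖Hc e v‖ ≤ 2 * ‖v‖ := by
  have h := norm_Hc_sq he v
  have h1 : |⟪e, v⟫| ≤ ‖e‖ * ‖v‖ := abs_real_inner_le_norm e v
  rw [he, one_mul] at h1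
  have h2 : ⟪e, v⟫ ^ 2 ≤ ‖v‖ ^ 2 := by
    rw [← sq_abs]
    exact pow_le_pow_left₀ (abs_nonneg _) h1 2
  have h3 : ‖Hc e v‖ ^ 2 ≤ (2 * ‖v‖) ^ 2 := by nlinarith
  exact abs_le_of_sq_le_sq' h3 (by positivity) |>.2

lemma Hc_eq_zero {e : E} (he : ‖e‖ = 1) {v : E} (h : Hc e v = 0) : v = 0 := by
  have := norm_Hc_sq he v
  rw [h, norm_zero] at this
  have h2 : ‖v‖ ^ 2 ≤ 0 := by nlinarith [sq_nonneg ⟪e, v⟫]
  have h3 : ‖v‖ = 0 := by
    have := sq_nonneg ‖v‖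
    have h4 : ‖v‖ ^ 2 = 0 := le_antisymm h2 this
    exact pow_eq_zero_iff (two_ne_zero) |>.1 h4
  exact norm_eq_zero.1 h3

lemma norm_sub_sq_le (a b : E) : ‖a - b‖ ^ 2 ≤ 2 * ‖a‖ ^ 2 + 2 * ‖b‖ ^ 2 := by
  have h := parallelogram_law_with_norm ℝ a b
  nlinarith [sq_nonneg ‖a + b‖]

lemma G'_pos {e : E} (α β : E) :
    97 * (‖α‖ ^ 2 + ‖β‖ ^ 2) ≤ ⟪(G' e (0, (α, β))).1, α⟫ + ⟪(G' e (0, (α, β))).2, β⟫ := by
  rw [G'_apply]
  simp only [sub_zero]
  have h1 := Hc_inner_self (e := e) (α - β)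
  have h2 := Hc_inner_self (e := e) α
  have h3 := Hc_inner_self (e := e) β
  have h4 := norm_sub_sq_le α β
  have e1 : ⟪Hc e (α - β), α - β⟫ = ⟪Hc e (α - β), α⟫ + ⟪Hc e (β - α), β⟫ := by
    have : Hc e (β - α) = -Hc e (α - β) := by rw [← map_neg, neg_sub]
    rw [this, inner_sub_right, inner_neg_left]
    ring
  have e2 : ⟪(100 : ℝ) • α + Hc e (α - β) + Hc e α, α⟫ =
      100 * ‖α‖ ^ 2 + ⟪Hc e (α - β), α⟫ + ⟪Hc e α, α⟫ := by
    rw [inner_add_left, inner_add_left, real_inner_smul_left, real_inner_self_eq_norm_sq]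
  have e3 : ⟪(100 : ℝ) • β + Hc e (β - α) + (1 / 8 : ℝ) • Hc e β, β⟫ =
      100 * ‖β‖ ^ 2 + ⟪Hc e (β - α), β⟫ + (1 / 8) * ⟪Hc e β, β⟫ := by
    rw [inner_add_left, inner_add_left, real_inner_smul_left, real_inner_smul_left,
      real_inner_self_eq_norm_sq]
  rw [e2, e3]
  nlinarith [sq_nonneg ‖α‖, sq_nonneg ‖β‖]

lemma G'_inr_injective {e : E} :
    Function.Injective (G' e ∘L ContinuousLinearMap.inr ℝ E (E × E)) := by
  rw [injective_iff_map_eq_zero]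
  rintro ⟨α, β⟩ h
  have h' : G' e (0, (α, β)) = 0 := by simpa using h
  have := G'_pos (e := e) α β
  rw [h'] at this
  simp only [Prod.fst_zero, Prod.snd_zero, inner_zero_left, add_zero] at this
  have ha : ‖α‖ ^ 2 ≤ 0 := by nlinarith [sq_nonneg ‖α‖, sq_nonneg ‖β‖]
  have hb : ‖β‖ ^ 2 ≤ 0 := by nlinarith [sq_nonneg ‖α‖, sq_nonneg ‖β‖]
  have ha' : α = 0 := by
    have h4 : ‖α‖ ^ 2 = 0 := le_antisymm ha (sq_nonneg _)
    exact norm_eq_zero.1 (pow_eq_zero_iff (two_ne_zero) |>.1 h4)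
  have hb' : β = 0 := by
    have h4 : ‖β‖ ^ 2 = 0 := le_antisymm hb (sq_nonneg _)
    exact norm_eq_zero.1 (pow_eq_zero_iff (two_ne_zero) |>.1 h4)
  rw [ha', hb']
  rfl

lemma eq_zero_of_smul_eq {e : E} (he : ‖e‖ = 1) {v : E} {k : ℝ} (hk : |k| ≤ 10)
    (h : (100 : ℝ) • v + k • Hc e v = 0) : v = 0 := by
  have h1 : (100 : ℝ) • v = -(k • Hc e v) := eq_neg_of_add_eq_zero_left h
  have h2 : 100 * ‖v‖ = |k| * ‖Hc e v‖ := by
    have := congrArg norm h1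
    rw [norm_smul, norm_neg, norm_smul] at this
    simpa using this
  have h3 := norm_Hc_le he v
  have h4 : |k| * ‖Hc e v‖ ≤ 10 * (2 * ‖v‖) :=
    mul_le_mul hk h3 (norm_nonneg _) (by norm_num)
  have h5 : ‖v‖ ≤ 0 := by
    have := norm_nonneg v
    linarith
  exact norm_le_zero_iff.1 h5

/-- If `G' (γ, (0, β)) = 0` then `γ = 0`. -/
lemma G'_kernel_a {e : E} (he : ‖e‖ = 1) {γ β : E} (h : G' e (γ, (0, β)) = 0) : γ = 0 := by
  rw [G'_apply] at h
  have h1 : (100 : ℝ) • (0 : E) + Hc e (0 - β) + Hc e (0 - γ) = 0 := congrArg Prod.fst h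
  have h2 : (100 : ℝ) • β + Hc e (β - 0) + (1 / 8 : ℝ) • Hc e (β - γ) = 0 := congrArg Prod.snd h
  have h3 : Hc e (-(β + γ)) = 0 := by
    rw [← h1]
    simp only [map_sub, map_neg, map_add, map_zero]
    module
  have h4 : β = -γ := by
    have := Hc_eq_zero he h3
    rw [neg_eq_zero] at this
    exact eq_neg_of_add_eq_zero_left this
  rw [h4] at h2
  refine eq_zero_of_smul_eq he (k := 5 / 4) ?_ ?_
  · rw [abs_of_pos] <;> norm_num
  · have : (100 : ℝ) • γ + (5 / 4 : ℝ) • Hc e γ =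
        -((100 : ℝ) • (-γ) + Hc e (-γ - 0) + (1 / 8 : ℝ) • Hc e (-γ - γ)) := by
      simp only [map_sub, map_neg, map_zero]
      module
    rw [this, h2, neg_zero]

/-- If `G' (γ, (α, 0)) = 0` then `γ = 0`. -/
lemma G'_kernel_b {e : E} (he : ‖e‖ = 1) {γ α : E} (h : G' e (γ, (α, 0)) = 0) : γ = 0 := by
  rw [G'_apply] at h
  have h1 : (100 : ℝ) • α + Hc e (α - 0) + Hc e (α - γ) = 0 := congrArg Prod.fst h
  have h2 : (100 : ℝ) • (0 : E) + Hc e (0 - α) + (1 / 8 : ℝ) • Hc e (0 - γ) = 0 :=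
    congrArg Prod.snd h
  have h3 : Hc e (-(α + (1 / 8 : ℝ) • γ)) = 0 := by
    rw [← h2]
    simp only [map_sub, map_neg, map_add, map_zero, map_smul]
    module
  have h4 : γ = -((8 : ℝ) • α) := by
    have h5 := Hc_eq_zero he h3
    rw [neg_eq_zero] at h5
    have h6 : α = -((1 / 8 : ℝ) • γ) := eq_neg_of_add_eq_zero_left h5
    rw [h6]
    module
  rw [h4] at h1
  have hα : α = 0 := by
    refine eq_zero_of_smul_eq he (k := 10) ?_ ?_
    · rw [abs_of_pos] <;> norm_num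
    · have : (100 : ℝ) • α + (10 : ℝ) • Hc e α =
          ((100 : ℝ) • α + Hc e (α - 0) + Hc e (α - -((8 : ℝ) • α))) := by
        simp only [map_sub, map_neg, map_zero, map_smul]
        module
      rw [this, h1]
  rw [h4, hα]
  simp

end Lin

section Diffeo

variable {E : Type*} [NormedAddCommGroup E] [NormedSpace ℝ E] [FiniteDimensional ℝ E]
  [MeasurableSpace E] [BorelSpace E]

lemma local_diffeo (μ : Measure E) [μ.IsAddHaarMeasure] {f : E → E} {x0 : E}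
    (hf : ContDiffAt ℝ 1 f x0) {f' : E →L[ℝ] E} (hf' : HasFDerivAt f f' x0)
    (hinj : Function.Injective f') :
    ∃ V : Set E, IsOpen V ∧ x0 ∈ V ∧ InjOn f V ∧ DifferentiableOn ℝ f V ∧
      (∀ O ⊆ V, IsOpen O → IsOpen (f '' O)) ∧ (∀ N, μ N = 0 → μ (V ∩ f ⁻¹' N) = 0) := by
  let L : E ≃L[ℝ] E := (LinearEquiv.ofInjectiveEndo (f' : E →ₗ[ℝ] E) hinj).toContinuousLinearEquiv
  have hL : (L : E →L[ℝ] E) = f' := by
    ext v
    rfl
  have hf'' : HasFDerivAt f (L : E →L[ℝ] E) x0 := by rw [hL]; exact hf'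
  let φ := hf.toOpenPartialHomeomorph f hf'' one_ne_zero
  have hφ : (φ : E → E) = f := rfl
  have hx0 : x0 ∈ φ.source := hf.mem_toOpenPartialHomeomorph_source hf'' one_ne_zero
  have hinv : ContDiffAt ℝ 1 φ.symm (f x0) := hf.to_localInverse hf'' one_ne_zero
  have hev1 : ∀ᶠ x in 𝓝 x0, ContDiffAt ℝ 1 f x := hf.eventually (by simp)
  have hev2 : ∀ᶠ y in 𝓝 (f x0), ContDiffAt ℝ 1 φ.symm y := hinv.eventually (by simp)
  have hev3 : ∀ᶠ x in 𝓝 x0, ContDiffAt ℝ 1 φ.symm (f x) :=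
    hf.continuousAt.eventually hev2
  obtain ⟨V, hV, hVo, hxV⟩ := mem_nhds_iff.1
    (hev1.and (hev3.and (φ.open_source.mem_nhds hx0)))
  have hVs : V ⊆ φ.source := fun x hx => (hV hx).2.2
  refine ⟨V, hVo, hxV, ?_, ?_, ?_, ?_⟩
  · have := φ.injOn.mono hVs
    rwa [hφ] at this
  · intro x hx
    exact ((hV hx).1.differentiableAt one_ne_zero).differentiableWithinAt
  · intro O hO hOo
    have := φ.isOpen_image_of_subset_source hOo (hO.trans hVs)
    rwa [hφ] at this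
  · intro N hN
    have hsub : V ∩ f ⁻¹' N ⊆ φ.symm '' (f '' V ∩ N) := by
      rintro x ⟨hx, hxN⟩
      exact ⟨f x, ⟨⟨x, hx, rfl⟩, hxN⟩, φ.left_inv (hVs hx)⟩
    refine measure_mono_null hsub ?_
    refine addHaar_image_eq_zero_of_differentiableOn_of_addHaar_eq_zero μ ?_
      (measure_mono_null inter_subset_right hN)
    rintro _ ⟨⟨x, hx, rfl⟩, _⟩
    exact ((hV hx).2.1.differentiableAt one_ne_zero).differentiableWithinAt

end Diffeo

end Vale.Agent.P121
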