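import Vale.Agent.P121.Setup

open MeasureTheory Set Filter
open scoped ENNReal Topology RealInnerProductSpace

namespace Vale.Agent.P121

namespace Setup

variable (s : Setup)

/-- The contact property. -/
def Con (x y z : E3) : Prop :=
  ∃ i, ∃ t ∈ s.U, IsPerm3 (s.Rm i (s.a t)) (s.Rm i (s.b t)) (s.Rm i t) x y z

lemma Con_swap12 {x y z : E3} (h : s.Con x y z) : s.Con y x z := by
  obtain ⟨i, t, ht, hp⟩ := h
  refine ⟨i, t, ht, ?_⟩
  unfold IsPerm3 at *
  tauto

lemma Con_swap23 {x y z : E3} (h : s.Con x y z) : s.Con x z y := by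
  obtain ⟨i, t, ht, hp⟩ := h
  refine ⟨i, t, ht, ?_⟩
  unfold IsPerm3 at *
  tauto

/-- The inequality to be proved. -/
def P (x y z : E3) : Prop :=
  s.pot x + s.pot y + s.pot z ≤ Cr x y z ∧
    (s.pot x + s.pot y + s.pot z = Cr x y z → s.Con x y z)

lemma P_swap12 {x y z : E3} (h : s.P x y z) : s.P y x z := by
  obtain ⟨h1, h2⟩ := h
  refine ⟨?_, ?_⟩
  · rw [Cr_swap12 y x z]; linarith
  · intro h3
    rw [Cr_swap12 y x z] at h3
    exact s.Con_swap12 (h2 (by linarith))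

lemma P_swap23 {x y z : E3} (h : s.P x y z) : s.P x z y := by
  obtain ⟨h1, h2⟩ := h
  refine ⟨?_, ?_⟩
  · rw [Cr_swap23 x z y]; linarith
  · intro h3
    rw [Cr_swap23 x z y] at h3
    exact s.Con_swap23 (h2 (by linarith))

lemma P_of_lt {x y z : E3} (h : s.pot x + s.pot y + s.pot z < Cr x y z) : s.P x y z :=
  ⟨h.le, fun h' => absurd h' h.ne⟩

lemma pot_le (x : E3) : s.pot x ≤ 5 / 2 := by
  classical
  by_cases hA : x ∈ s.SA
  · exact (s.pot_A_bounds hA).2
  by_cases h1 : x ∈ s.SB false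
  · have := abs_le.1 (s.pot_out (i := false) (Or.inl h1)); linarith
  by_cases h2 : x ∈ s.SC false
  · have := abs_le.1 (s.pot_out (i := false) (Or.inr h2)); linarith
  by_cases h3 : x ∈ s.SB true
  · have := abs_le.1 (s.pot_out (i := true) (Or.inl h3)); linarith
  by_cases h4 : x ∈ s.SC true
  · have := abs_le.1 (s.pot_out (i := true) (Or.inr h4)); linarith
  unfold pot
  rw [if_neg hA, if_neg h1, if_neg h2, if_neg h3, if_neg h4]
  norm_num

lemma pot_ge (x : E3) : -1 ≤ s.pot x := by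
  classical
  by_cases hA : x ∈ s.SA
  · linarith [(s.pot_A_bounds hA).1]
  by_cases h1 : x ∈ s.SB false
  · have := abs_le.1 (s.pot_out (i := false) (Or.inl h1)); linarith
  by_cases h2 : x ∈ s.SC false
  · have := abs_le.1 (s.pot_out (i := false) (Or.inr h2)); linarith
  by_cases h3 : x ∈ s.SB true
  · have := abs_le.1 (s.pot_out (i := true) (Or.inl h3)); linarith
  by_cases h4 : x ∈ s.SC true
  · have := abs_le.1 (s.pot_out (i := true) (Or.inr h4)); linarith
  unfold pot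
  rw [if_neg hA, if_neg h1, if_neg h2, if_neg h3, if_neg h4]
  norm_num

lemma inv_norm_nonneg (x : E3) : 0 ≤ ‖x‖⁻¹ := inv_nonneg.2 (norm_nonneg _)

/-- Two points in the same cluster. -/
lemma P_same {x y z : E3} (hne : x ≠ y) (h : ‖x - y‖ < 2 * s.ρ) : s.P x y z := by
  apply s.P_of_lt
  have h0 : 0 < ‖x - y‖ := norm_pos_iff.2 (sub_ne_zero.2 hne)
  have h1 : ‖x - y‖ < 1 / 50 := by linarith [s.hρ2]
  have h2 : (50 : ℝ) < ‖x - y‖⁻¹ := by
    rw [lt_inv_comm₀ (by norm_num) h0]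
    simpa using h1
  have := s.pot_le x
  have := s.pot_le y
  have := s.pot_le z
  have := inv_norm_nonneg (x - z)
  have := inv_norm_nonneg (y - z)
  unfold Cr
  linarith

lemma same_A {x y : E3} (hx : x ∈ s.SA) (hy : y ∈ s.SA) : ‖x - y‖ < 2 * s.ρ := by
  have := norm_sub_le x y
  have := s.mem_SA hx
  have := s.mem_SA hy
  linarith

lemma same_B {i : Bool} {x y : E3} (hx : x ∈ s.SB i) (hy : y ∈ s.SB i) :
    ‖x - y‖ < 2 * s.ρ := by
  have h1 := norm_sub_le (x - s.cen i) (y - s.cen i)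
  simp only [sub_sub_sub_cancel_right] at h1
  have := s.mem_SB hx
  have := s.mem_SB hy
  linarith

lemma same_C {i : Bool} {x y : E3} (hx : x ∈ s.SC i) (hy : y ∈ s.SC i) :
    ‖x - y‖ < 2 * s.ρ := by
  have h1 := norm_sub_le (x + s.cen i) (y + s.cen i)
  simp only [add_sub_add_right_eq_sub] at h1
  have := s.mem_SC hx
  have := s.mem_SC hy
  linarith

/-- All three outer. -/
lemma P_out {i j k : Bool} {x y z : E3} (hx : x ∈ s.Out i) (hy : y ∈ s.Out j)
    (hz : z ∈ s.Out k) (hxy : x ≠ y) (hxz : x ≠ z) (hyz : y ≠ z) : s.P x y z := by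
  apply s.P_of_lt
  have key : ∀ p q : E3, p ≠ q → ‖p‖ < 1 + s.ρ → ‖q‖ < 1 + s.ρ → (1 / 3 : ℝ) < ‖p - q‖⁻¹ := by
    intro p q hpq hp hq
    have h0 : 0 < ‖p - q‖ := norm_pos_iff.2 (sub_ne_zero.2 hpq)
    have h1 := norm_sub_le p q
    rw [lt_inv_comm₀ (by norm_num) h0]
    have := s.hρ2
    norm_num
    linarith
  have k1 := key x y hxy (s.norm_of_out hx) (s.norm_of_out hy)
  have k2 := key x z hxz (s.norm_of_out hx) (s.norm_of_out hz)
  have k3 := key y z hyz (s.norm_of_out hy) (s.norm_of_out hz)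
  have p1 := abs_le.1 (s.pot_out hx)
  have p2 := abs_le.1 (s.pot_out hy)
  have p3 := abs_le.1 (s.pot_out hz)
  unfold Cr
  linarith

/-- One inner, two adjacent outer. -/
lemma P_adj {x y z : E3} (hx : x ∈ s.SA) (hy : y ∈ s.Out false) (hz : z ∈ s.Out true) :
    s.P x y z := by
  apply s.P_of_lt
  have hr := s.hρ2
  have hr0 := s.hρ
  have key : ∀ q : E3, ∀ i, q ∈ s.Out i → (100 / 102 : ℝ) ≤ ‖x - q‖⁻¹ := by
    intro q i hq
    have hxn := s.mem_SA hx
    have hq1 := s.norm_of_out hq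
    have hq2 := s.norm_of_out_ge hq
    have h0 : 0 < ‖x - q‖ := by
      rw [norm_pos_iff, sub_ne_zero]
      rintro rfl
      linarith
    have h1 := norm_sub_le x q
    rw [le_inv_comm₀ (by norm_num) h0]
    norm_num
    linarith
  have k1 := key y _ hy
  have k2 := key z _ hz
  have d := s.dist_out_out hy hz
  have k3 : (1000 / 1435 : ℝ) ≤ ‖y - z‖⁻¹ := by
    have h0 : 0 < ‖y - z‖ := by linarith
    rw [le_inv_comm₀ (by norm_num) h0]
    norm_num
    linarith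
  have p1 := (s.pot_A_bounds hx).2
  have p2 := abs_le.1 (s.pot_out hy)
  have p3 := abs_le.1 (s.pot_out hz)
  unfold Cr
  linarith

lemma Fe_eq (x y c : E3) : Fe s.e c x y = Cr x y c - (5 / 2 - 50 * ‖x‖ ^ 2) - s.v y := by
  unfold Fe Cr v
  ring

lemma norm_Rm (i : Bool) (x : E3) : ‖s.Rm i x‖ = ‖x‖ := LinearIsometryEquiv.norm_map _ _

/-- The contact inequality. -/
lemma P_contact {i : Bool} {x y z : E3} (hx : x ∈ s.SA) (hy : y ∈ s.SB i) (hz : z ∈ s.SC i) :
    s.P x y z := by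
  have hx' : s.Rm i x ∈ Metric.ball (0 : E3) s.ρ := by
    rw [Metric.mem_ball, dist_eq_norm, sub_zero, s.norm_Rm]
    exact s.mem_SA hx
  have hy' : s.Rm i y ∈ Metric.ball s.e s.ρ := hy
  have hz' : s.Rm i z ∈ s.U := hz
  have e1 : Cr x y z - (s.pot x + s.pot y + s.pot z) =
      Fe s.e (s.Rm i z) (s.Rm i x) (s.Rm i y) - s.w (s.Rm i z) := by
    rw [s.Fe_eq, s.Cr_Rm, s.pot_A hx, s.pot_B hy, s.pot_C hz, s.norm_Rm]
    ring
  by_cases hcase : s.Rm i x = s.a (s.Rm i z) ∧ s.Rm i y = s.b (s.Rm i z)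
  · refine ⟨?_, ?_⟩
    · have : Fe s.e (s.Rm i z) (s.Rm i x) (s.Rm i y) - s.w (s.Rm i z) = 0 := by
        rw [hcase.1, hcase.2]
        unfold w
        ring
      linarith
    · intro _
      refine ⟨i, s.Rm i z, hz', Or.inl ⟨?_, ?_, ?_⟩⟩
      · rw [← hcase.1, s.Rm_Rm]
      · rw [← hcase.2, s.Rm_Rm]
      · rw [s.Rm_Rm]
  · apply s.P_of_lt
    have := s.min _ hz' _ hx' _ hy' hcase
    unfold w at e1
    linarith

lemma contact_eq {i : Bool} {t : E3} (ht : t ∈ s.U) :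
    s.pot (s.Rm i (s.a t)) + s.pot (s.Rm i (s.b t)) + s.pot (s.Rm i t) =
      Cr (s.Rm i (s.a t)) (s.Rm i (s.b t)) (s.Rm i t) := by
  have hx : s.Rm i (s.a t) ∈ s.SA := by
    have := s.mapa ht
    unfold SA
    rw [Metric.mem_ball, dist_eq_norm, sub_zero] at *
    rwa [s.norm_Rm]
  have hy : s.Rm i (s.b t) ∈ s.SB i := by
    have := s.mapb ht
    unfold SB
    rw [mem_preimage, s.Rm_Rm]
    exact this
  have hz : s.Rm i t ∈ s.SC i := by
    unfold SC
    rw [mem_preimage, s.Rm_Rm]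
    exact ht
  rw [s.pot_A hx, s.pot_B hy, s.pot_C hz, s.Cr_Rm, s.Rm_Rm, s.Rm_Rm, s.norm_Rm]
  have := s.Fe_eq (s.a t) (s.b t) t
  unfold w
  rw [this]
  ring

/-- One inner point. -/
lemma P_inner {i j : Bool} {x y z : E3} (hx : x ∈ s.SA) (hy : y ∈ s.Out i) (hz : z ∈ s.Out j)
    (hyz : y ≠ z) : s.P x y z := by
  have hsame : ‖y - z‖ < 2 * s.ρ → s.P x y z := fun h =>
    s.P_swap12 (s.P_swap23 (s.P_same (z := x) hyz h))
  cases i <;> cases j
  · rcases hy with hy | hy <;> rcases hz with hz | hz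
    · exact hsame (s.same_B hy hz)
    · exact s.P_contact hx hy hz
    · exact s.P_swap23 (s.P_contact hx hz hy)
    · exact hsame (s.same_C hy hz)
  · exact s.P_adj hx hy hz
  · exact s.P_swap23 (s.P_adj hx hz hy)
  · rcases hy with hy | hy <;> rcases hz with hz | hz
    · exact hsame (s.same_B hy hz)
    · exact s.P_contact hx hy hz
    · exact s.P_swap23 (s.P_contact hx hz hy)
    · exact hsame (s.same_C hy hz)

lemma mem_S_cases {x : E3} (h : x ∈ s.S) : x ∈ s.SA ∨ ∃ i, x ∈ s.Out i := by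
  rcases h with (h | h) | h
  · exact Or.inl h
  · obtain ⟨i, hi⟩ := mem_iUnion.1 h
    exact Or.inr ⟨i, Or.inl hi⟩
  · obtain ⟨i, hi⟩ := mem_iUnion.1 h
    exact Or.inr ⟨i, Or.inr hi⟩

theorem P_all {x y z : E3} (hx : x ∈ s.S) (hy : y ∈ s.S) (hz : z ∈ s.S) (hxy : x ≠ y)
    (hxz : x ≠ z) (hyz : y ≠ z) : s.P x y z := by
  rcases s.mem_S_cases hx with hx | ⟨i, hx⟩
  · rcases s.mem_S_cases hy with hy | ⟨j, hy⟩
    · exact s.P_same hxy (s.same_A hx hy)
    · rcases s.mem_S_cases hz with hz | ⟨k, hz⟩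
      · exact s.P_swap23 (s.P_same hxz (s.same_A hx hz))
      · exact s.P_inner hx hy hz hyz
  · rcases s.mem_S_cases hy with hy | ⟨j, hy⟩
    · rcases s.mem_S_cases hz with hz | ⟨k, hz⟩
      · exact s.P_swap12 (s.P_swap23 (s.P_same (z := x) hyz (s.same_A hy hz)))
      · exact s.P_swap12 (s.P_inner hy hx hz hxz)
    · rcases s.mem_S_cases hz with hz | ⟨k, hz⟩
      · exact s.P_swap23 (s.P_swap12 (s.P_inner hz hx hy hxy))
      · exact s.P_out hx hy hz hxy hxz hyz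

end Setup

end Vale.Agent.P121
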