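import Vale.Agent.P121.Ineq

open MeasureTheory Set Filter
open scoped ENNReal Topology RealInnerProductSpace

namespace Vale.Agent.P121

/-- Coulomb cost with values in `[0, ∞]`. -/
noncomputable def coul (x y z : E3) : ℝ≥0∞ := (edist x y)⁻¹ + (edist x z)⁻¹ + (edist y z)⁻¹

lemma inv_edist {x y : E3} (h : x ≠ y) : (edist x y)⁻¹ = ENNReal.ofReal (‖x - y‖⁻¹) := by
  rw [edist_dist, dist_eq_norm, ENNReal.ofReal_inv_of_pos (norm_pos_iff.2 (sub_ne_zero.2 h))]

lemma coul_eq {x y z : E3} (hxy : x ≠ y) (hxz : x ≠ z) (hyz : y ≠ z) :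
    coul x y z = ENNReal.ofReal (Setup.Cr x y z) := by
  unfold coul Setup.Cr
  rw [inv_edist hxy, inv_edist hxz, inv_edist hyz, ENNReal.ofReal_add, ENNReal.ofReal_add]
  all_goals positivity

lemma coul_top {x y z : E3} (h : x = y ∨ x = z ∨ y = z) : coul x y z = ∞ := by
  unfold coul
  rcases h with h | h | h
  · rw [h]; simp
  · rw [h]; simp
  · rw [h]; simp

lemma coul_cyc (x y z : E3) : coul x y z = coul y z x := by
  unfold coul
  rw [edist_comm x y, edist_comm x z]
  ring

lemma measurable_coul : Measurable (fun p : E3 × E3 × E3 => coul p.1 p.2.1 p.2.2) := by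
  unfold coul
  have m1 : Measurable (fun p : E3 × E3 × E3 => p.1) := measurable_fst
  have m2 : Measurable (fun p : E3 × E3 × E3 => p.2.1) := measurable_fst.comp measurable_snd
  have m3 : Measurable (fun p : E3 × E3 × E3 => p.2.2) := measurable_snd.comp measurable_snd
  exact (((m1.edist m2).inv).add ((m1.edist m3).inv)).add ((m2.edist m3).inv)

namespace Setup

variable (s : Setup)

lemma volU_pos : (volume : Measure E3) s.U ≠ 0 :=
  (s.hUo.measure_pos volume ⟨_, s.hU0⟩).ne'

lemma volU_fin : (volume : Measure E3) s.U ≠ ∞ :=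
  ne_top_of_le_ne_top (Metric.isBounded_ball.measure_lt_top (μ := volume)).ne
    (measure_mono s.hUb)

/-- the base probability measure -/
noncomputable def lam : Measure E3 := ((volume : Measure E3) s.U)⁻¹ • (volume : Measure E3).restrict s.U

lemma lam_prob : IsProbabilityMeasure s.lam := by
  constructor
  unfold lam
  rw [Measure.smul_apply, Measure.restrict_apply MeasurableSet.univ, univ_inter, smul_eq_mul]
  exact ENNReal.inv_mul_cancel s.volU_pos s.volU_fin

lemma mU : MeasurableSet s.U := s.hUo.measurableSet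

lemma lam_compl : s.lam s.Uᶜ = 0 := by
  unfold lam
  rw [Measure.smul_apply, Measure.restrict_apply s.mU.compl]
  simp

lemma lam_apply {t : Set E3} (ht : MeasurableSet t) :
    s.lam t = ((volume : Measure E3) s.U)⁻¹ * (volume : Measure E3) (t ∩ s.U) := by
  unfold lam
  rw [Measure.smul_apply, Measure.restrict_apply ht, smul_eq_mul]

lemma lam_zero {t : Set E3} (ht : MeasurableSet t) :
    s.lam t = 0 ↔ (volume : Measure E3) (t ∩ s.U) = 0 := by
  rw [s.lam_apply ht, mul_eq_zero, or_iff_right]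
  exact ENNReal.inv_ne_zero.2 s.volU_fin

lemma meas_Rm (i : Bool) : Measurable (s.Rm i) := (s.Rm i).continuous.measurable

lemma meas_v : Measurable s.v := by
  unfold v
  have h1 : Measurable (fun x : E3 => x - s.e) := measurable_id.sub_const _
  exact ((h1.norm.pow_const 2).const_mul 50).neg.sub
    ((measurable_const.inner h1).const_mul _)

lemma meas_w : Measurable s.w := by
  unfold w Fe
  have h1 := s.ma
  have h2 := s.mb
  have h3 : Measurable (fun x : E3 => x) := measurable_id
  exact (((((((h1.sub h2).norm.inv).add ((h1.sub h3).norm.inv)).add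
    ((h2.sub h3).norm.inv)).add ((h1.norm.pow_const 2).const_mul 50)).add
    (((h2.sub_const s.e).norm.pow_const 2).const_mul 50)).add
    ((measurable_const.inner (h2.sub_const s.e)).const_mul (5 / 4))).sub_const (5 / 2)

lemma mSA : MeasurableSet s.SA := measurableSet_ball
lemma mSB (i : Bool) : MeasurableSet (s.SB i) := s.meas_Rm i measurableSet_ball
lemma mSC (i : Bool) : MeasurableSet (s.SC i) := s.meas_Rm i s.mU

lemma meas_pot : Measurable s.pot := by
  unfold pot
  refine Measurable.ite s.mSA ?_ (Measurable.ite (s.mSB _) s.meas_v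
    (Measurable.ite (s.mSC _) s.meas_w (Measurable.ite (s.mSB _) (s.meas_v.comp (s.meas_Rm true))
    (Measurable.ite (s.mSC _) (s.meas_w.comp (s.meas_Rm true)) measurable_const))))
  exact measurable_const.sub ((measurable_id.norm.pow_const 2).const_mul 50)

lemma map_a {i : Bool} {t : E3} (ht : t ∈ s.U) : s.Rm i (s.a t) ∈ s.SA := by
  have := s.mapa ht
  unfold SA
  rw [Metric.mem_ball, dist_eq_norm, sub_zero] at *
  rwa [s.norm_Rm]

lemma map_b {i : Bool} {t : E3} (ht : t ∈ s.U) : s.Rm i (s.b t) ∈ s.SB i := by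
  have := s.mapb ht
  unfold SB
  rw [mem_preimage, s.Rm_Rm]
  exact this

lemma map_c {i : Bool} {t : E3} (ht : t ∈ s.U) : s.Rm i t ∈ s.SC i := by
  unfold SC
  rw [mem_preimage, s.Rm_Rm]
  exact ht

lemma u_sum (x y z : E3) : ENNReal.ofReal (s.pot x + 1) + ENNReal.ofReal (s.pot y + 1) +
    ENNReal.ofReal (s.pot z + 1) = ENNReal.ofReal (s.pot x + s.pot y + s.pot z + 3) := by
  have h1 := s.pot_ge x
  have h2 := s.pot_ge y
  have h3 := s.pot_ge z
  rw [← ENNReal.ofReal_add (by linarith) (by linarith),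
    ← ENNReal.ofReal_add (by linarith) (by linarith)]
  congr 1
  ring

lemma Cr_nonneg (x y z : E3) : 0 ≤ Cr x y z := by
  unfold Cr; positivity

lemma ofReal_three_add {r : ℝ} (hr : 0 ≤ r) : ENNReal.ofReal r + 3 = ENNReal.ofReal (r + 3) := by
  rw [ENNReal.ofReal_add hr (by norm_num)]
  congr 1
  norm_num

lemma not_mutual {N : Set E3} (mN : MeasurableSet N)
    (h1 : s.lam.map (fun t => s.Rm false (s.a t)) N = 0)
    (h2 : s.lam.map (fun t => s.Rm true (s.a t)) Nᶜ = 0) : False := by
  have m1 : Measurable (fun t => s.Rm false (s.a t)) := (s.meas_Rm _).comp s.ma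
  have m2 : Measurable (fun t => s.Rm true (s.a t)) := (s.meas_Rm _).comp s.ma
  rw [Measure.map_apply m1 mN, s.lam_zero (m1 mN)] at h1
  rw [Measure.map_apply m2 mN.compl, s.lam_zero (m2 mN.compl)] at h2
  set W : Set E3 := s.a '' s.U with hW
  set W2 : Set E3 := s.R '' W with hW2
  have hW2o : IsOpen W2 := s.R.toHomeomorph.isOpenMap _ s.opena
  have h0W : (0 : E3) ∈ W := ⟨-s.e, s.hU0, s.ha0⟩
  have h0W2 : (0 : E3) ∈ W2 := ⟨0, h0W, map_zero _⟩
  have n1 : (volume : Measure E3) (W ∩ N) = 0 := by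
    have hsub : W ∩ N ⊆ s.a '' ((fun t => s.Rm false (s.a t)) ⁻¹' N ∩ s.U) := by
      rintro _ ⟨⟨t, ht, rfl⟩, hN⟩
      exact ⟨t, ⟨hN, ht⟩, rfl⟩
    refine measure_mono_null hsub ?_
    exact addHaar_image_eq_zero_of_differentiableOn_of_addHaar_eq_zero volume
      (s.diffa.mono inter_subset_right) h1
  have n2 : (volume : Measure E3) (W2 ∩ Nᶜ) = 0 := by
    have hsub : W2 ∩ Nᶜ ⊆ (fun t => s.R (s.a t)) ''
        ((fun t => s.Rm true (s.a t)) ⁻¹' Nᶜ ∩ s.U) := by
      rintro _ ⟨⟨_, ⟨t, ht, rfl⟩, rfl⟩, hN⟩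
      exact ⟨t, ⟨hN, ht⟩, rfl⟩
    refine measure_mono_null hsub ?_
    refine addHaar_image_eq_zero_of_differentiableOn_of_addHaar_eq_zero volume ?_ h2
    intro t ht
    exact (s.R.differentiable.differentiableAt).comp_differentiableWithinAt t
      (s.diffa.mono inter_subset_right t ht)
  have hpos : 0 < (volume : Measure E3) (W ∩ W2) :=
    (s.opena.inter hW2o).measure_pos volume ⟨0, h0W, h0W2⟩
  have hle : W ∩ W2 ⊆ (W ∩ N) ∪ (W2 ∩ Nᶜ) := by
    rintro x ⟨hx1, hx2⟩
    by_cases hx : x ∈ N
    · exact Or.inl ⟨hx1, hx⟩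
    · exact Or.inr ⟨hx2, hx⟩
  have := measure_mono_null hle (measure_union_null n1 n2)
  exact hpos.ne' this

/-- The data for the abstract theorem. -/
noncomputable def data : Data coul where
  lam := s.lam
  prob := s.lam_prob
  U := s.U
  hU := s.mU
  hlam := s.lam_compl
  α := fun i t => s.Rm i (s.a t)
  β := fun i t => s.Rm i (s.b t)
  γ := fun i t => s.Rm i t
  hα := fun i => (s.meas_Rm i).comp s.ma
  hβ := fun i => (s.meas_Rm i).comp s.mb
  hγ := fun i => s.meas_Rm i
  SA := s.SA
  SB := s.SB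
  SC := s.SC
  mSA := s.mSA
  mSB := s.mSB
  mSC := s.mSC
  dAB := fun i => Set.disjoint_left.2 fun x h h' => s.disj_A_out h (Or.inl h' : x ∈ s.Out i)
  dAC := fun i => Set.disjoint_left.2 fun x h h' => s.disj_A_out h (Or.inr h' : x ∈ s.Out i)
  dBC := fun i j => Set.disjoint_left.2 fun x h h' => by
    cases i <;> cases j
    · exact s.disj_BC h h'
    · exact s.disj_out (Or.inl h) (Or.inr h')
    · exact s.disj_out (Or.inr h') (Or.inl h)
    · exact s.disj_BC h h'
  dBB := Set.disjoint_left.2 fun x h h' => s.disj_out (Or.inl h) (Or.inl h')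
  dCC := Set.disjoint_left.2 fun x h h' => s.disj_out (Or.inr h) (Or.inr h')
  mapα := fun i t ht => s.map_a ht
  mapβ := fun i t ht => s.map_b ht
  mapγ := fun i t ht => s.map_c ht
  injα := fun i x hx y hy h => s.inja hx hy ((s.Rm i).injective h)
  injβ := fun i x hx y hy h => s.injb hx hy ((s.Rm i).injective h)
  injγ := fun i x hx y hy h => (s.Rm i).injective h
  u := fun x => ENNReal.ofReal (s.pot x + 1)
  hu := (s.meas_pot.add_const 1).ennreal_ofReal
  bound := ENNReal.ofReal 4
  hbound := ENNReal.ofReal_ne_top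
  hub := fun x => ENNReal.ofReal_le_ofReal (by linarith [s.pot_le x])
  M := 3
  hM := by norm_num
  hc := measurable_coul
  csymm1 := coul_cyc
  hge := by
    intro x hx y hy z hz
    by_cases h : x = y ∨ x = z ∨ y = z
    · rw [coul_top h]; simp
    · push Not at h
      have hP := (s.P_all hx hy hz h.1 h.2.1 h.2.2).1
      rw [s.u_sum, coul_eq h.1 h.2.1 h.2.2, ofReal_three_add (Cr_nonneg _ _ _)]
      exact ENNReal.ofReal_le_ofReal (by linarith)
  heq := by
    intro x hx y hy z hz heq
    by_cases h : x = y ∨ x = z ∨ y = z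
    · rw [coul_top h, s.u_sum] at heq
      simp at heq
    · push Not at h
      have hP := s.P_all hx hy hz h.1 h.2.1 h.2.2
      rw [s.u_sum, coul_eq h.1 h.2.1 h.2.2, ofReal_three_add (Cr_nonneg _ _ _)] at heq
      have h3 := (ENNReal.ofReal_eq_ofReal_iff (by linarith [s.pot_ge x, s.pot_ge y, s.pot_ge z])
        (by linarith [Cr_nonneg x y z])).1 heq
      exact hP.2 (by linarith)
  hcontact := by
    intro i t ht
    have hA := s.map_a (i := i) ht
    have hB := s.map_b (i := i) ht
    have hC := s.map_c (i := i) ht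
    have h1 : s.Rm i (s.a t) ≠ s.Rm i (s.b t) := fun h =>
      s.disj_A_out hA (Or.inl (h ▸ hB) : _ ∈ s.Out i)
    have h2 : s.Rm i (s.a t) ≠ s.Rm i t := fun h =>
      s.disj_A_out hA (Or.inr (h ▸ hC) : _ ∈ s.Out i)
    have h3 : s.Rm i (s.b t) ≠ s.Rm i t := fun h => s.disj_BC hB (h ▸ hC)
    rw [s.u_sum, coul_eq h1 h2 h3, ofReal_three_add (Cr_nonneg _ _ _), s.contact_eq ht]
  hns := by
    rintro ⟨N, mN, h1, h2⟩
    exact s.not_mutual mN h1 h2

lemma mu_ac : s.data.mu ≪ (volume : Measure E3) := by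
  refine Measure.AbsolutelyContinuous.mk (fun t mt ht => ?_)
  have hR : ∀ i, (volume : Measure E3) (s.Rm i ⁻¹' t) = 0 := by
    intro i
    rw [(s.Rm i).measurePreserving.measure_preimage mt.nullMeasurableSet]
    exact ht
  have hα : ∀ i, s.data.lam.map (s.data.α i) t = 0 := by
    intro i
    have m : Measurable (fun t => s.Rm i (s.a t)) := (s.meas_Rm i).comp s.ma
    change s.lam.map (fun t => s.Rm i (s.a t)) t = 0
    rw [Measure.map_apply m mt, s.lam_zero (m mt), inter_comm]
    exact s.nulla _ (hR i)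
  have hβ : ∀ i, s.data.lam.map (s.data.β i) t = 0 := by
    intro i
    have m : Measurable (fun t => s.Rm i (s.b t)) := (s.meas_Rm i).comp s.mb
    change s.lam.map (fun t => s.Rm i (s.b t)) t = 0
    rw [Measure.map_apply m mt, s.lam_zero (m mt), inter_comm]
    exact s.nullb _ (hR i)
  have hγ : ∀ i, s.data.lam.map (s.data.γ i) t = 0 := by
    intro i
    have m : Measurable (fun t => s.Rm i t) := s.meas_Rm i
    change s.lam.map (fun t => s.Rm i t) t = 0
    rw [Measure.map_apply m mt, s.lam_zero (m mt)]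
    exact measure_mono_null inter_subset_left (hR i)
  unfold Data.mu
  simp only [Measure.smul_apply, Measure.add_apply, hα, hβ, hγ]
  simp

end Setup

/-- Existence of the analytic data. -/
theorem exists_setup : Nonempty Setup := by
  classical
  let e : E3 := EuclideanSpace.single 0 1
  let f : E3 := EuclideanSpace.single 1 1
  have he : ‖e‖ = 1 := by simp [e]
  have hf : ‖f‖ = 1 := by simp [f]
  have hef : ⟪e, f⟫ = 0 := by
    rw [EuclideanSpace.inner_single_left]
    simp [f]
  let R : E3 ≃ₗᵢ[ℝ] E3 := (ℝ ∙ (e - f))ᗮ.reflection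
  have hRe : R e = f := Submodule.reflection_sub (by rw [he, hf])
  have hRR : ∀ x, R (R x) = x := fun x => Submodule.reflection_reflection _ x
  obtain ⟨ρ1, hρ1, hcore⟩ := core (volume : Measure E3) he
  have hρ : 0 < min ρ1 (1 / 100) := by positivity
  obtain ⟨U, a, b, hUo, hU0, hUb, ha0, ca, cb, mapa, mapb, inja, injb, diffa, opena, nulla,
    nullb, small, hmin⟩ := hcore (min ρ1 (1 / 100)) hρ (min_le_left _ _) (1 / 100) (by norm_num)
  have mU : MeasurableSet U := hUo.measurableSet
  let a' : E3 → E3 := U.piecewise a 0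
  let b' : E3 → E3 := U.piecewise b 0
  have ea : EqOn a' a U := Set.piecewise_eqOn _ _ _
  have eb : EqOn b' b U := Set.piecewise_eqOn _ _ _
  have ma : Measurable a' := ca.measurable_piecewise continuousOn_const mU
  have mb : Measurable b' := cb.measurable_piecewise continuousOn_const mU
  exact ⟨{
    e := e
    R := R
    he := he
    hRR := hRR
    hef := by rw [hRe]; exact hef
    ρ := min ρ1 (1 / 100)
    hρ := hρ
    hρ2 := min_le_right _ _
    U := U
    a := a'
    b := b'
    ma := ma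
    mb := mb
    hUo := hUo
    hU0 := hU0
    hUb := hUb
    ha0 := by rw [ea hU0]; exact ha0
    mapa := mapa.congr ea.symm
    mapb := mapb.congr eb.symm
    inja := inja.congr ea.symm
    injb := injb.congr eb.symm
    diffa := diffa.congr ea
    opena := by rw [ea.image_eq]; exact opena
    nulla := by
      intro N hN
      have : U ∩ a' ⁻¹' N = U ∩ a ⁻¹' N := by
        ext x
        constructor
        · rintro ⟨hx, hx2⟩; exact ⟨hx, by rw [mem_preimage, ← ea hx]; exact hx2⟩
        · rintro ⟨hx, hx2⟩; exact ⟨hx, by rw [mem_preimage, ea hx]; exact hx2⟩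
      rw [this]; exact nulla N hN
    nullb := by
      intro N hN
      have : U ∩ b' ⁻¹' N = U ∩ b ⁻¹' N := by
        ext x
        constructor
        · rintro ⟨hx, hx2⟩; exact ⟨hx, by rw [mem_preimage, ← eb hx]; exact hx2⟩
        · rintro ⟨hx, hx2⟩; exact ⟨hx, by rw [mem_preimage, eb hx]; exact hx2⟩
      rw [this]; exact nullb N hN
    small := by
      intro c hc
      rw [ea hc, eb hc]
      exact small c hc
    min := by
      intro c hc x hx y hy hxy
      rw [ea hc, eb hc] at *
      exact hmin c hc x hx y hy hxy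
  }⟩

/-- Main theorem in internal form. -/
theorem main : ∃ μ : Measure E3, IsProbabilityMeasure μ ∧ μ ≪ (volume : Measure E3) ∧
    kant coul μ < ∞ ∧
    ∀ T2 T3 : E3 → E3, Measurable T2 → Measurable T3 → μ.map T2 = μ → μ.map T3 = μ →
      ∫⁻ x, coul x (T2 x) (T3 x) ∂μ ≠ kant coul μ := by
  obtain ⟨s⟩ := exists_setup
  refine ⟨s.data.mu, inferInstance, s.mu_ac, s.data.kant_ne_top.lt_top, ?_⟩
  intro T2 T3 h2 h3 m2 m3 hopt
  exact s.data.no_monge h2 h3 m2 m3 hopt

end Vale.Agent.P121
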