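import Vale.Agent.P121.Core
import Vale.Agent.P121.Abstract

open MeasureTheory Set Filter
open scoped ENNReal Topology RealInnerProductSpace

namespace Vale.Agent.P121

/-- Euclidean three-space. -/
abbrev E3 := EuclideanSpace ℝ (Fin 3)

/-- The analytic data. -/
structure Setup where
  e : E3
  R : E3 ≃ₗᵢ[ℝ] E3
  he : ‖e‖ = 1
  hRR : ∀ x, R (R x) = x
  hef : ⟪e, R e⟫ = 0
  ρ : ℝ
  hρ : 0 < ρ
  hρ2 : ρ ≤ 1 / 100
  U : Set E3
  a : E3 → E3
  b : E3 → E3
  ma : Measurable a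
  mb : Measurable b
  hUo : IsOpen U
  hU0 : -e ∈ U
  hUb : U ⊆ Metric.ball (-e) ρ
  ha0 : a (-e) = 0
  mapa : MapsTo a U (Metric.ball 0 ρ)
  mapb : MapsTo b U (Metric.ball e ρ)
  inja : InjOn a U
  injb : InjOn b U
  diffa : DifferentiableOn ℝ a U
  opena : IsOpen (a '' U)
  nulla : ∀ N, (volume : Measure E3) N = 0 → (volume : Measure E3) (U ∩ a ⁻¹' N) = 0
  nullb : ∀ N, (volume : Measure E3) N = 0 → (volume : Measure E3) (U ∩ b ⁻¹' N) = 0
  small : ∀ c ∈ U, |Fe e c (a c) (b c)| < 1 / 100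
  min : ∀ c ∈ U, ∀ x ∈ Metric.ball (0 : E3) ρ, ∀ y ∈ Metric.ball e ρ,
        ¬ (x = a c ∧ y = b c) → Fe e c (a c) (b c) < Fe e c x y

namespace Setup

variable (s : Setup)

/-- The identity or the reflection. -/
noncomputable def Rm (i : Bool) : E3 ≃ₗᵢ[ℝ] E3 := if i then s.R else LinearIsometryEquiv.refl ℝ E3

lemma Rm_false (x : E3) : s.Rm false x = x := rfl
lemma Rm_true (x : E3) : s.Rm true x = s.R x := rfl

lemma Rm_Rm (i : Bool) (x : E3) : s.Rm i (s.Rm i x) = x := by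
  cases i
  · rfl
  · exact s.hRR x

def SA : Set E3 := Metric.ball 0 s.ρ
def SB (i : Bool) : Set E3 := (s.Rm i) ⁻¹' Metric.ball s.e s.ρ
def SC (i : Bool) : Set E3 := (s.Rm i) ⁻¹' s.U
def S : Set E3 := s.SA ∪ (⋃ i, s.SB i) ∪ (⋃ i, s.SC i)

/-- potential near `e` -/
noncomputable def v (x : E3) : ℝ := -(50 * ‖x - s.e‖ ^ 2) - (5 / 4) * ⟪s.e, x - s.e⟫
/-- potential near `-e` -/
noncomputable def w (x : E3) : ℝ := Fe s.e x (s.a x) (s.b x)

open Classical in
/-- The Kantorovich potential. -/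
noncomputable def pot (x : E3) : ℝ :=
  if x ∈ s.SA then 5 / 2 - 50 * ‖x‖ ^ 2
  else if x ∈ s.SB false then s.v x
  else if x ∈ s.SC false then s.w x
  else if x ∈ s.SB true then s.v (s.R x)
  else if x ∈ s.SC true then s.w (s.R x)
  else 0

/-- real Coulomb cost -/
noncomputable def Cr (x y z : E3) : ℝ := ‖x - y‖⁻¹ + ‖x - z‖⁻¹ + ‖y - z‖⁻¹

lemma Cr_swap12 (x y z : E3) : Cr x y z = Cr y x z := by
  unfold Cr; rw [norm_sub_rev x y]; ring

lemma Cr_swap23 (x y z : E3) : Cr x y z = Cr x z y := by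
  unfold Cr; rw [norm_sub_rev y z]; ring

lemma Cr_Rm (i : Bool) (x y z : E3) : Cr (s.Rm i x) (s.Rm i y) (s.Rm i z) = Cr x y z := by
  unfold Cr
  rw [← map_sub, ← map_sub, ← map_sub, LinearIsometryEquiv.norm_map,
    LinearIsometryEquiv.norm_map, LinearIsometryEquiv.norm_map]

/-- centres of the outer clusters -/
noncomputable def cen (i : Bool) : E3 := s.Rm i s.e

lemma mem_SB {i : Bool} {x : E3} (h : x ∈ s.SB i) : ‖x - s.cen i‖ < s.ρ := by
  have h1 : s.Rm i x ∈ Metric.ball s.e s.ρ := h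
  rw [Metric.mem_ball, dist_eq_norm] at h1
  have h2 : s.Rm i (x - s.cen i) = s.Rm i x - s.e := by
    rw [map_sub, cen, s.Rm_Rm]
  rw [← LinearIsometryEquiv.norm_map (s.Rm i), h2]
  exact h1

lemma mem_SC {i : Bool} {x : E3} (h : x ∈ s.SC i) : ‖x + s.cen i‖ < s.ρ := by
  have h1 : s.Rm i x ∈ Metric.ball (-s.e) s.ρ := s.hUb h
  rw [Metric.mem_ball, dist_eq_norm] at h1
  have h2 : s.Rm i (x + s.cen i) = s.Rm i x - -s.e := by
    rw [map_add, cen, s.Rm_Rm, sub_neg_eq_add]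
  rw [← LinearIsometryEquiv.norm_map (s.Rm i), h2]
  exact h1

lemma mem_SA {x : E3} (h : x ∈ s.SA) : ‖x‖ < s.ρ := by
  have h1 : x ∈ Metric.ball (0 : E3) s.ρ := h
  rwa [Metric.mem_ball, dist_eq_norm, sub_zero] at h1

lemma norm_cen (i : Bool) : ‖s.cen i‖ = 1 := by
  rw [cen, LinearIsometryEquiv.norm_map, s.he]

lemma norm_cen_sub_sq : ‖s.cen false - s.cen true‖ ^ 2 = 2 := by
  rw [← real_inner_self_eq_norm_sq, inner_sub_left, inner_sub_right, inner_sub_right,
    real_inner_self_eq_norm_sq, real_inner_self_eq_norm_sq, s.norm_cen, s.norm_cen,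
    real_inner_comm (s.cen false) (s.cen true)]
  have : ⟪s.cen false, s.cen true⟫ = 0 := s.hef
  rw [this]; norm_num

lemma norm_cen_add_sq : ‖s.cen false + s.cen true‖ ^ 2 = 2 := by
  rw [← real_inner_self_eq_norm_sq, inner_add_left, inner_add_right, inner_add_right,
    real_inner_self_eq_norm_sq, real_inner_self_eq_norm_sq, s.norm_cen, s.norm_cen,
    real_inner_comm (s.cen false) (s.cen true)]
  have : ⟪s.cen false, s.cen true⟫ = 0 := s.hef
  rw [this]; norm_num

lemma le_of_sq_eq_two {r : ℝ} (h : r ^ 2 = 2) : r ≤ 1.415 := by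
  by_contra hcon
  push Not at hcon
  nlinarith

lemma ge_of_sq_eq_two {r : ℝ} (h0 : 0 ≤ r) (h : r ^ 2 = 2) : 1 ≤ r := by
  by_contra hcon
  push Not at hcon
  nlinarith

/-- x is in an outer cluster of type i -/
def Out (i : Bool) : Set E3 := s.SB i ∪ s.SC i

lemma norm_of_out {i : Bool} {x : E3} (h : x ∈ s.Out i) : ‖x‖ < 1 + s.ρ := by
  rcases h with h | h
  · have h1 := s.mem_SB h
    have h2 : ‖x‖ ≤ ‖x - s.cen i‖ + ‖s.cen i‖ := by
      have := norm_add_le (x - s.cen i) (s.cen i)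
      simpa using this
    rw [s.norm_cen] at h2
    linarith
  · have h1 := s.mem_SC h
    have h2 : ‖x‖ ≤ ‖x + s.cen i‖ + ‖s.cen i‖ := by
      have := norm_sub_le (x + s.cen i) (s.cen i)
      simpa using this
    rw [s.norm_cen] at h2
    linarith

lemma norm_of_out_ge {i : Bool} {x : E3} (h : x ∈ s.Out i) : 1 - s.ρ < ‖x‖ := by
  rcases h with h | h
  · have h1 := s.mem_SB h
    have h2 : ‖s.cen i‖ ≤ ‖x - s.cen i‖ + ‖x‖ := by
      have := norm_sub_le x (x - s.cen i)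
      simp only [sub_sub_cancel] at this
      linarith
    rw [s.norm_cen] at h2
    linarith
  · have h1 := s.mem_SC h
    have h2 : ‖s.cen i‖ ≤ ‖x + s.cen i‖ + ‖x‖ := by
      have := norm_sub_le (x + s.cen i) x
      simp only [add_sub_cancel_left] at this
      linarith
    rw [s.norm_cen] at h2
    linarith

lemma dist_out_out {x y : E3} (hx : x ∈ s.Out false) (hy : y ∈ s.Out true) :
    ‖x - y‖ < 1.415 + 2 * s.ρ ∧ 1 - 2 * s.ρ < ‖x - y‖ := by
  have k1 := le_of_sq_eq_two s.norm_cen_sub_sq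
  have k2 := le_of_sq_eq_two s.norm_cen_add_sq
  have k3 := ge_of_sq_eq_two (norm_nonneg _) s.norm_cen_sub_sq
  have k4 := ge_of_sq_eq_two (norm_nonneg _) s.norm_cen_add_sq
  have tri : ∀ p q : E3, ‖x - p‖ < s.ρ → ‖y - q‖ < s.ρ → ‖p - q‖ ≤ 1.415 → 1 ≤ ‖p - q‖ →
      ‖x - y‖ < 1.415 + 2 * s.ρ ∧ 1 - 2 * s.ρ < ‖x - y‖ := by
    intro p q hp hq h1 h2
    have e1 : x - y = (x - p) + (p - q) - (y - q) := by abel
    have e2 : p - q = (x - y) - (x - p) + (y - q) := by abel
    constructor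
    · have t1 := norm_sub_le ((x - p) + (p - q)) (y - q)
      have t2 := norm_add_le (x - p) (p - q)
      rw [← e1] at t1
      linarith
    · have t1 := norm_add_le ((x - y) - (x - p)) (y - q)
      have t2 := norm_sub_le (x - y) (x - p)
      rw [← e2] at t1
      linarith
  rcases hx with hx | hx <;> rcases hy with hy | hy
  · exact tri _ _ (s.mem_SB hx) (s.mem_SB hy) k1 k3
  · have := s.mem_SC hy
    refine tri (s.cen false) (-s.cen true) (s.mem_SB hx) (by simpa using this) ?_ ?_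
    · simpa using k2
    · simpa using k4
  · have := s.mem_SC hx
    have e3 : ‖-s.cen false - s.cen true‖ = ‖s.cen false + s.cen true‖ := by
      rw [← norm_neg]; congr 1; abel
    refine tri (-s.cen false) (s.cen true) (by simpa using this) (s.mem_SB hy) ?_ ?_
    · rw [e3]; exact k2
    · rw [e3]; exact k4
  · have h1 := s.mem_SC hx
    have h2 := s.mem_SC hy
    have e3 : ‖-s.cen false - -s.cen true‖ = ‖s.cen false - s.cen true‖ := by
      rw [← norm_neg]; congr 1; abel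
    refine tri (-s.cen false) (-s.cen true) (by simpa using h1) (by simpa using h2) ?_ ?_
    · rw [e3]; exact k1
    · rw [e3]; exact k3

/-! Disjointness -/

lemma disj_A_out {i : Bool} {x : E3} (h : x ∈ s.SA) (h' : x ∈ s.Out i) : False := by
  have h1 := s.mem_SA h
  have h2 := s.norm_of_out_ge h'
  have := s.hρ2
  linarith

lemma disj_BC {i : Bool} {x : E3} (h : x ∈ s.SB i) (h' : x ∈ s.SC i) : False := by
  have h1 := s.mem_SB h
  have h2 := s.mem_SC h'
  have h3 := norm_sub_le (x + s.cen i) (x - s.cen i)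
  have h4 : (x + s.cen i) - (x - s.cen i) = (2 : ℝ) • s.cen i := by module
  rw [h4, norm_smul, s.norm_cen] at h3
  norm_num at h3
  have := s.hρ2
  linarith

lemma disj_out {x : E3} (h : x ∈ s.Out false) (h' : x ∈ s.Out true) : False := by
  have h1 := (s.dist_out_out h h').2
  rw [sub_self, norm_zero] at h1
  have := s.hρ2
  linarith

/-! Evaluation of the potential -/

lemma pot_A {x : E3} (h : x ∈ s.SA) : s.pot x = 5 / 2 - 50 * ‖x‖ ^ 2 := by
  unfold pot; rw [if_pos h]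

lemma pot_B {i : Bool} {x : E3} (h : x ∈ s.SB i) : s.pot x = s.v (s.Rm i x) := by
  have hA : x ∉ s.SA := fun h' => s.disj_A_out h' (Or.inl h)
  unfold pot
  rw [if_neg hA]
  cases i
  · rw [if_pos h]; rfl
  · have h1 : x ∉ s.SB false := fun h' => s.disj_out (Or.inl h') (Or.inl h)
    have h2 : x ∉ s.SC false := fun h' => s.disj_out (Or.inr h') (Or.inl h)
    rw [if_neg h1, if_neg h2, if_pos h]; rfl

lemma pot_C {i : Bool} {x : E3} (h : x ∈ s.SC i) : s.pot x = s.w (s.Rm i x) := by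
  have hA : x ∉ s.SA := fun h' => s.disj_A_out h' (Or.inr h)
  unfold pot
  rw [if_neg hA]
  cases i
  · have h1 : x ∉ s.SB false := fun h' => s.disj_BC h' h
    rw [if_neg h1, if_pos h]; rfl
  · have h1 : x ∉ s.SB false := fun h' => s.disj_out (Or.inl h') (Or.inr h)
    have h2 : x ∉ s.SC false := fun h' => s.disj_out (Or.inr h') (Or.inr h)
    have h3 : x ∉ s.SB true := fun h' => s.disj_BC h' h
    rw [if_neg h1, if_neg h2, if_neg h3, if_pos h]; rfl

lemma v_bounds {x : E3} (h : x ∈ Metric.ball s.e s.ρ) : |s.v x| ≤ 1 / 50 := by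
  rw [Metric.mem_ball, dist_eq_norm] at h
  have h1 := abs_real_inner_le_norm s.e (x - s.e)
  rw [s.he, one_mul] at h1
  have h2 := abs_le.1 h1
  have h3 := s.hρ2
  have h4 := s.hρ
  have h5 := norm_nonneg (x - s.e)
  unfold v
  rw [abs_le]
  constructor <;> nlinarith

lemma pot_out {i : Bool} {x : E3} (h : x ∈ s.Out i) : |s.pot x| ≤ 1 / 50 := by
  rcases h with h | h
  · rw [s.pot_B h]; exact s.v_bounds h
  · rw [s.pot_C h]
    have := s.small (s.Rm i x) h
    unfold w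
    linarith

lemma pot_A_bounds {x : E3} (h : x ∈ s.SA) : 0 ≤ s.pot x ∧ s.pot x ≤ 5 / 2 := by
  rw [s.pot_A h]
  have h1 := s.mem_SA h
  have h2 := s.hρ2
  have h3 := norm_nonneg x
  constructor <;> nlinarith

end Setup

end Vale.Agent.P121
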